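import Vale.Agent.Lib.P328.RC.Defs

/-!
# P328, chain (HEX+) => JS: the abstract Hilbert space lemmas (A1)-(A4)

All operators are averaging operators `avg r` of equivalence relations on a finite type,
`dot` is the counting inner product and `jsTerm` is the (JS)-type expression of the RC definitions file.
-/

namespace P328JS

open P335 P328RC Finset

variable {Ω : Type*} [Fintype Ω]

/-! ### generalities -/

theorem avg_zero (r : Ω → Ω → Prop) : avg r (0 : Ω → ℝ) = 0 := by
  funext x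
  simp [avg]

theorem avg_neg (r : Ω → Ω → Prop) (f : Ω → ℝ) : avg r (-f) = -avg r f := by
  have h := avg_sub r 0 f
  rw [avg_zero] at h
  simpa using h

theorem dot_neg_neg (f g : Ω → ℝ) : dot (-f) (-g) = dot f g := by
  unfold dot
  exact Finset.sum_congr rfl (fun x _ => by simp)

theorem dot_zero_left (f : Ω → ℝ) : dot 0 f = 0 := by
  simp [dot]

theorem dot_zero_right (f : Ω → ℝ) : dot f 0 = 0 := by
  simp [dot]

/-- Pythagoras for an averaging operator -/
theorem dot_Q_Q_eq {r : Ω → Ω → Prop} (hr : Equivalence r) (f : Ω → ℝ) :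
    dot (f - avg r f) (f - avg r f) = dot f f - dot (avg r f) (avg r f) := by
  rw [dot_Q_Q hr, dot_sub_right, dot_avg_avg hr]

/-- an averaging operator is a contraction -/
theorem dot_avg_le {r : Ω → Ω → Prop} (hr : Equivalence r) (f : Ω → ℝ) :
    dot (avg r f) (avg r f) ≤ dot f f := by
  have h := dot_self_nonneg (f - avg r f)
  rw [dot_Q_Q_eq hr] at h
  linarith

/-- equality in the contraction property forces invariance -/
theorem avg_eq_of_dot_eq {r : Ω → Ω → Prop} (hr : Equivalence r) {f : Ω → ℝ}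
    (h : dot f f ≤ dot (avg r f) (avg r f)) : avg r f = f := by
  have h0 : dot (f - avg r f) (f - avg r f) = 0 := by
    have h1 := dot_self_nonneg (f - avg r f)
    have h2 := dot_Q_Q_eq hr f
    linarith
  exact (sub_eq_zero.1 (dot_self_eq_zero h0)).symm

theorem dot_avg_avg' {r : Ω → Ω → Prop} (hr : Equivalence r) (f g : Ω → ℝ) :
    dot (avg r f) (avg r g) = dot f (avg r g) := by
  rw [avg_symm hr, avg_idem hr]

/-- the formula (*): if `avg R f = 0` then
`jsTerm R rr f z = |f|^2 + |z|^2 - |avg rr (f + z)|^2` -/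
theorem jsTerm_eq {R rr : Ω → Ω → Prop} (hrr : Equivalence rr) (f z : Ω → ℝ)
    (hf : avg R f = 0) :
    jsTerm R rr f z = dot f f + dot z z - dot (avg rr (f + z)) (avg rr (f + z)) := by
  unfold jsTerm
  rw [hf, sub_zero, dot_Q_Q_eq hrr, dot_Q_Q_eq hrr, avg_add, dot_add_left, dot_add_right,
    dot_add_right, dot_comm (avg rr z) (avg rr f), dot_avg_avg' hrr f z]
  ring

/-- `jsTerm RT rr` does not see the mean of its first argument -/
theorem jsTerm_center {rr : Ω → Ω → Prop} (hrr : Equivalence rr) (g z : Ω → ℝ) :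
    jsTerm RT rr (g - avg RT g) z = jsTerm RT rr g z := by
  have h1 : avg rr (avg RT g) = avg RT g :=
    avg_avg_of_ge hrr RT_equiv (fun _ _ _ => trivial) g
  unfold jsTerm
  rw [avg_sub, avg_sub, h1, avg_idem RT_equiv, sub_self, sub_zero]
  have h2 : g - avg RT g - (avg rr g - avg RT g) = g - avg rr g := by abel
  rw [h2]

theorem avg_RT_center (g : Ω → ℝ) : avg RT (g - avg RT g) = 0 := by
  rw [avg_sub, avg_idem RT_equiv, sub_self]

/-! ### (A1): the lift -/

omit [Fintype Ω] in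
/-- connectivity from a common level: if every `P`-class meets one fixed `E`-class then the only
functions invariant under both relations are the constants -/
theorem conn_of_sel {P E : Ω → Ω → Prop} (x0 : Ω) (hsel : ∀ x, ∃ y, P x y ∧ E x0 y)
    (k : Ω → ℝ) (hP : Inv P k) (hE : Inv E k) : Inv RT k := by
  have h : ∀ x, k x = k x0 := by
    intro x
    obtain ⟨y, h1, h2⟩ := hsel x
    rw [hP x y h1, hE x0 y h2]
  intro x y _
  rw [h x, h y]

/-- (A1) -/
theorem lift_exists {P E : Ω → Ω → Prop} (hP : Equivalence P) (hE : Equivalence E)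
    (hconn : ∀ k : Ω → ℝ, Inv P k → Inv E k → Inv RT k) (g : Ω → ℝ) (hg : avg RT g = 0) :
    ∃ h psi : Ω → ℝ, avg E psi = psi ∧ avg P (h - psi) = h - psi ∧ avg P h = avg P g ∧
      avg E h = 0 := by
  -- the symmetric operator `1 - P E P`
  obtain ⟨A, hA⟩ : ∃ A : (Ω → ℝ) →ₗ[ℝ] (Ω → ℝ), ∀ f, A f = f - avg P (avg E (avg P f)) :=
    ⟨LinearMap.id - (avgL P) ∘ₗ (avgL E) ∘ₗ (avgL P), fun f => rfl⟩
  have hsym : ∀ f g, dot (A f) g = dot f (A g) := by
    intro f g
    rw [hA, hA, dot_sub_left, dot_sub_right, avg_symm hP, avg_symm hE, avg_symm hP]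
  have hker : ∀ k, A k = 0 → dot (avg P g) k = 0 := by
    intro k hk
    rw [hA] at hk
    have hk' : avg P (avg E (avg P k)) = k := (sub_eq_zero.1 hk).symm
    have e1 : dot k k = dot (avg E (avg P k)) (avg E (avg P k)) := by
      nth_rewrite 2 [← hk']
      rw [← avg_symm hP, dot_avg_avg hE]
    have l1 := dot_avg_le hE (avg P k)
    have l2 := dot_avg_le hP k
    have hPk : avg P k = k := avg_eq_of_dot_eq hP (by linarith)
    have hEk : avg E k = k := by
      apply avg_eq_of_dot_eq hE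
      rw [hPk] at e1
      linarith
    have hT : avg RT k = k :=
      avg_of_inv RT_equiv (hconn k (inv_of_avg_eq hP hPk) (inv_of_avg_eq hE hEk))
    rw [avg_symm hP, hPk, ← hT, ← avg_symm RT_equiv, hg, dot_zero_left]
  obtain ⟨al, hal⟩ := exists_preimage_of_orth_ker A hsym (avg P g) hker
  rw [hA] at hal
  have hal' : al = avg P g + avg P (avg E (avg P al)) := by
    rw [← hal]
    abel
  have hPal : avg P al = al := by
    have : avg P al = avg P g + avg P (avg E (avg P al)) := by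
      nth_rewrite 1 [hal']
      rw [avg_add, avg_idem hP, avg_idem hP]
    rw [this, ← hal']
  refine ⟨al - avg E al, -avg E al, ?_, ?_, ?_, ?_⟩
  · rw [avg_neg, avg_idem hE]
  · have : al - avg E al - -avg E al = al := by abel
    rw [this, hPal]
  · rw [avg_sub, hPal]
    rw [hPal] at hal
    exact hal
  · rw [avg_sub, avg_idem hE, sub_self]

/-! ### (A2) -/

/-- (A2), inequality -/
theorem jsTerm_ge_of_lift {P E : Ω → Ω → Prop} (hP : Equivalence P) (hE : Equivalence E)
    (g h z : Ω → ℝ) (hg : avg RT g = 0) (hPh : avg P h = avg P g) (hEh : avg E h = 0)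
    (hz : avg E z = z) :
    dot g g - dot h h ≤ jsTerm RT P g z := by
  rw [jsTerm_eq hP g z hg, avg_add, ← hPh, ← avg_add]
  have h1 := dot_avg_le hP (h + z)
  have h2 : dot h z = 0 := by
    rw [← hz, ← avg_symm hE, hEh, dot_zero_left]
  rw [dot_add_left, dot_add_right, dot_add_right, dot_comm z h, h2] at h1
  linarith

/-- (A2), equality at `z = -psi` -/
theorem jsTerm_eq_of_lift {P E : Ω → Ω → Prop} (hP : Equivalence P) (hE : Equivalence E)
    (g h psi : Ω → ℝ) (hg : avg RT g = 0) (hPh : avg P h = avg P g) (hEh : avg E h = 0)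
    (hpsi : avg E psi = psi) (hal : avg P (h - psi) = h - psi) :
    jsTerm RT P g (-psi) = dot g g - dot h h := by
  rw [jsTerm_eq hP g (-psi) hg, avg_add, ← hPh, ← avg_add, ← sub_eq_add_neg, hal]
  have h2 : dot h psi = 0 := by
    rw [← hpsi, ← avg_symm hE, hEh, dot_zero_left]
  rw [dot_neg_neg, dot_sub_left, dot_sub_right, dot_sub_right, dot_comm psi h, h2]
  ring

/-! ### (A3) -/

/-- (A3): block -> merged pair.  `Pt` is finer than `PT`. -/
theorem jsTerm_block_le {E PT Pt : Ω → Ω → Prop} (hPT : Equivalence PT) (hPt : Equivalence Pt)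
    (hle : ∀ x y, Pt x y → PT x y)
    (g h Z : Ω → ℝ) (hg : avg RT g = 0) (hEh : avg E h = 0) (hTh : avg PT h = avg PT g) :
    jsTerm E Pt h Z ≤ jsTerm RT PT g Z - dot g g + dot h h := by
  rw [jsTerm_eq hPt h Z hEh, jsTerm_eq hPT g Z hg, avg_add PT g Z, ← hTh, ← avg_add,
    ← avg_avg_of_le hPt hPT hle (h + Z)]
  have h1 := dot_avg_le hPT (avg Pt (h + Z))
  linarith

/-- `P h = P g` passes to coarser relations -/
theorem avg_eq_of_le {P PT : Ω → Ω → Prop} (hP : Equivalence P) (hPT : Equivalence PT)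
    (hle : ∀ x y, P x y → PT x y) {g h : Ω → ℝ} (hPh : avg P h = avg P g) :
    avg PT h = avg PT g := by
  rw [← avg_avg_of_le hP hPT hle h, hPh, avg_avg_of_le hP hPT hle g]

/-! ### (A4) -/

/-- (A4): a pair disjoint from `J0`.  `P` is the averaging of `J0`, `PJ` that of `J`. -/
theorem jsTerm_disjoint_le {P E PJ : Ω → Ω → Prop} (hP : Equivalence P)
    (hcomm : ∀ f : Ω → ℝ, avg P (avg PJ f) = avg PJ (avg P f))
    (g h psi z : Ω → ℝ) (hg : avg RT g = 0) (hPh : avg P h = avg P g) (hEh : avg E h = 0)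
    (hal : avg P (h - psi) = h - psi) (hpsi : avg PJ psi = psi)
    (hz : avg P (avg PJ z) = avg PJ z) :
    jsTerm E PJ h z ≤ jsTerm RT PJ g z := by
  unfold jsTerm
  rw [hg, hEh, sub_zero, sub_zero]
  -- the cross terms agree
  have hc : dot h (avg PJ z) = dot g (avg PJ z) := by
    rw [← hz, ← avg_symm hP, hPh, avg_symm hP]
  -- `Q_J h = P Q_J g`
  have hQ : h - avg PJ h = avg P (g - avg PJ g) := by
    have e1 : h - avg PJ h = (h - psi) - avg PJ (h - psi) := by
      rw [avg_sub, hpsi]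
      abel
    have e2 : avg P psi - avg PJ (avg P psi) = 0 := by
      rw [← hcomm, hpsi, sub_self]
    have e3 : avg P (h - psi) - avg PJ (avg P (h - psi)) = avg P (g - avg PJ g) := by
      rw [avg_sub P h psi, avg_sub PJ, hPh, avg_sub P g, hcomm g]
      have : avg P g - avg P psi - (avg PJ (avg P g) - avg PJ (avg P psi))
          = avg P g - avg PJ (avg P g) - (avg P psi - avg PJ (avg P psi)) := by abel
      rw [this, e2, sub_zero]
    rw [e1, ← e3, hal]
  rw [hQ, hc]
  have := dot_avg_le hP (g - avg PJ g)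
  linarith

/-- the hypothesis `hz` of (A4) from invariance of `z` -/
theorem avg_avg_of_comm_inv {P PJ : Ω → Ω → Prop} (hP : Equivalence P)
    (hcomm : ∀ f : Ω → ℝ, avg P (avg PJ f) = avg PJ (avg P f)) {z : Ω → ℝ} (hz : Inv P z) :
    avg P (avg PJ z) = avg PJ z := by
  rw [hcomm, avg_of_inv hP hz]

/-! ### the abstract induction step (section 3 of the blueprint) -/

/-- The induction step in abstract form.  `P` = averaging of the pair `J0 = (p,q)`, `E` = same
level `s0`; `L` indexes the other active sites `l` with the pair relations `Rp l`, `Rq l`, the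
block relation `RB l` and the merged pair relation `Rm l`; `D` indexes the pairs disjoint from
`J0`.  `hBL` is the slice lemma (BL), `hIH` the induction hypothesis summed over the level sets;
`adm l` is the class of admissible functions `Z` (functions of the depth `sigma_l`). -/
theorem abs_step {lam del : Type*} (L : Finset lam) (D : Finset del) {P E : Ω → Ω → Prop}
    (hP : Equivalence P) (hE : Equivalence E)
    (hconn : ∀ k : Ω → ℝ, Inv P k → Inv E k → Inv RT k)
    (Rp Rq RB Rm : lam → Ω → Ω → Prop) (RD : del → Ω → Ω → Prop)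
    (hRB : ∀ l ∈ L, Equivalence (RB l)) (hRm : ∀ l ∈ L, Equivalence (Rm l))
    (hmB : ∀ l ∈ L, ∀ x y, Rm l x y → RB l x y) (hPB : ∀ l ∈ L, ∀ x y, P x y → RB l x y)
    (hRD : ∀ J ∈ D, Equivalence (RD J)) (hDE : ∀ J ∈ D, ∀ x y, RD J x y → E x y)
    (hcomm : ∀ J ∈ D, ∀ f : Ω → ℝ, avg P (avg (RD J) f) = avg (RD J) (avg P f))
    (adm : lam → (Ω → ℝ) → Prop)
    (g z0 : Ω → ℝ) (zp zq : lam → Ω → ℝ) (zD : del → Ω → ℝ)
    (hg : avg RT g = 0) (hz0 : Inv E z0) (hzD : ∀ J ∈ D, Inv P (zD J))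
    (hBL : ∀ psi : Ω → ℝ, Inv E psi → ∀ l ∈ L, ∃ Z, adm l Z ∧
      jsTerm RT (RB l) g Z
        ≤ jsTerm RT P g psi + jsTerm RT (Rp l) g (zp l) + jsTerm RT (Rq l) g (zq l))
    (hIH : ∀ (h : Ω → ℝ) (Z : lam → Ω → ℝ), (∀ l ∈ L, adm l (Z l)) →
      dot (h - avg E h) (h - avg E h)
        ≤ ∑ l ∈ L, jsTerm E (Rm l) h (Z l) + ∑ J ∈ D, jsTerm E (RD J) h (zD J)) :
    dot g g ≤ jsTerm RT P g z0
      + ∑ l ∈ L, (jsTerm RT (Rp l) g (zp l) + jsTerm RT (Rq l) g (zq l))
      + ∑ J ∈ D, jsTerm RT (RD J) g (zD J) := by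
  classical
  obtain ⟨h, psi, hpsi, hal, hPh, hEh⟩ := lift_exists hP hE hconn g hg
  have hnpsi : Inv E (-psi) := by
    apply inv_of_avg_eq hE
    rw [avg_neg, hpsi]
  have hex : ∀ l, ∃ Z, l ∈ L → (adm l Z ∧ jsTerm RT (RB l) g Z
      ≤ jsTerm RT P g (-psi) + jsTerm RT (Rp l) g (zp l) + jsTerm RT (Rq l) g (zq l)) := by
    intro l
    by_cases hl : l ∈ L
    · obtain ⟨Z, hZ⟩ := hBL (-psi) hnpsi l hl
      exact ⟨Z, fun _ => hZ⟩
    · exact ⟨0, fun h' => absurd h' hl⟩
  choose Z hZ using hex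
  have h0 := jsTerm_ge_of_lift hP hE g h z0 hg hPh hEh (avg_of_inv hE hz0)
  have h0' := jsTerm_eq_of_lift hP hE g h psi hg hPh hEh hpsi hal
  have hI := hIH h Z (fun l hl => (hZ l hl).1)
  rw [hEh, sub_zero] at hI
  have hLs : ∑ l ∈ L, jsTerm E (Rm l) h (Z l)
      ≤ ∑ l ∈ L, (jsTerm RT (Rp l) g (zp l) + jsTerm RT (Rq l) g (zq l)) := by
    refine Finset.sum_le_sum fun l hl => ?_
    have h1 := (hZ l hl).2
    have h2 := jsTerm_block_le (E := E) (hRB l hl) (hRm l hl) (hmB l hl) g h (Z l) hg hEh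
      (avg_eq_of_le hP (hRB l hl) (hPB l hl) hPh)
    linarith
  have hDs : ∑ J ∈ D, jsTerm E (RD J) h (zD J) ≤ ∑ J ∈ D, jsTerm RT (RD J) g (zD J) := by
    refine Finset.sum_le_sum fun J hJ => ?_
    refine jsTerm_disjoint_le hP (hcomm J hJ) g h psi (zD J) hg hPh hEh hal ?_
      (avg_avg_of_comm_inv hP (hcomm J hJ) (hzD J hJ))
    exact avg_of_inv (hRD J hJ) (fun x y hxy => inv_of_avg_eq hE hpsi x y (hDE J hJ x y hxy))
  linarith

end P328JS
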