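import Vale.Agent.Lib.P328.JS.Abs
import Vale.Agent.Lib.P328.RC.Local

/-!
# P328, chain (HEX) ==> (JS): further abstract lemmas (A5), `localise2`
-/

namespace P328JS

open P335 P328RC Finset

variable {Ω : Type*} [Fintype Ω]

/-- (A5) from the slice-wise inequality to the block inequality.
Proof: `jsTerm RT (rr a) g z = jsTerm T (rr a) g z - 2 <avg T g - avg RT g, avg T z>` and
`jsTerm RT T g Z = |g - avg T g|^2 + |Z - avg T Z|^2 - 2 <avg T g - avg RT g, avg T Z>`. -/
theorem A5 {T : Ω → Ω → Prop} (hT : Equivalence T) {α : Type*} (S : Finset α)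
    (rr : α → Ω → Ω → Prop) (hrr : ∀ a, Equivalence (rr a)) (hle : ∀ a x y, rr a x y → T x y)
    (g Z : Ω → ℝ) (z : α → Ω → ℝ)
    (H1 : dot (g - avg T g) (g - avg T g) + dot (Z - avg T Z) (Z - avg T Z)
      ≤ ∑ a ∈ S, jsTerm T (rr a) g (z a))
    (H2 : avg T Z = ∑ a ∈ S, avg T (z a)) :
    jsTerm RT T g Z ≤ ∑ a ∈ S, jsTerm RT (rr a) g (z a) := by
  set w : Ω → ℝ := avg T g - avg RT g with hw
  have hTw : avg T w = w := by
    rw [hw, avg_sub, avg_idem hT, avg_avg_of_ge hT RT_equiv (fun _ _ _ => trivial)]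
  have hsplit : g - avg RT g = (g - avg T g) + w := by
    rw [hw]; abel
  have hQ : ∀ u : Ω → ℝ, dot (g - avg T g) (avg T u) = 0 := by
    intro u
    rw [← avg_symm hT, avg_sub, avg_idem hT, sub_self, dot_zero_left]
  have h1 : ∀ a, jsTerm RT (rr a) g (z a)
      = jsTerm T (rr a) g (z a) - 2 * dot w (avg T (z a)) := by
    intro a
    have e1 : dot w (avg (rr a) (z a)) = dot w (avg T (z a)) := by
      have e2 : dot (avg T w) (avg (rr a) (z a)) = dot w (avg T (z a)) := by
        rw [avg_symm hT, avg_avg_of_le (hrr a) hT (hle a)]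
      rw [hTw] at e2
      exact e2
    unfold jsTerm
    rw [hsplit, dot_add_left, e1]
    ring
  have h2 : jsTerm RT T g Z = dot (g - avg T g) (g - avg T g) + dot (Z - avg T Z) (Z - avg T Z)
      - 2 * dot w (avg T Z) := by
    unfold jsTerm
    rw [hsplit, dot_add_left, hQ Z]
    ring
  have h3 : ∑ a ∈ S, dot w (avg T (z a)) = dot w (avg T Z) := by
    rw [H2, dot_sum_right]
  rw [h2, Finset.sum_congr rfl (fun a _ => h1 a), Finset.sum_sub_distrib, ← Finset.mul_sum, h3]
  linarith

/-- localisation with an extra variance term (same proof as `P328RC.localise`) -/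
theorem localise2 {R : Ω → Ω → Prop} (hR : Equivalence R) {α : Type*} (S : Finset α)
    (rr : α → Ω → Ω → Prop) (hrr : ∀ a, Equivalence (rr a)) (hle : ∀ a x y, rr a x y → R x y)
    (f Z : Ω → ℝ) (z : α → Ω → ℝ)
    (hloc : ∀ x0 : Ω,
      dot ((fun y : Fib R x0 => f y.1) - avg RT (fun y : Fib R x0 => f y.1))
          ((fun y : Fib R x0 => f y.1) - avg RT (fun y : Fib R x0 => f y.1))
        + dot ((fun y : Fib R x0 => Z y.1) - avg RT (fun y : Fib R x0 => Z y.1))
          ((fun y : Fib R x0 => Z y.1) - avg RT (fun y : Fib R x0 => Z y.1))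
        ≤ ∑ a ∈ S, jsTerm RT (relFib (rr a) R x0) (fun y : Fib R x0 => f y.1)
            (fun y : Fib R x0 => z a y.1)) :
    dot (f - avg R f) (f - avg R f) + dot (Z - avg R Z) (Z - avg R Z)
      ≤ ∑ a ∈ S, jsTerm R (rr a) f (z a) := by
  -- pointwise densities
  have hL : dot (f - avg R f) (f - avg R f) + dot (Z - avg R Z) (Z - avg R Z)
      = ∑ x, ((f - avg R f) x * (f - avg R f) x + (Z - avg R Z) x * (Z - avg R Z) x) := by
    unfold dot
    rw [Finset.sum_add_distrib]
  have hRt : ∑ a ∈ S, jsTerm R (rr a) f (z a)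
      = ∑ x, ∑ a ∈ S, ((f - avg (rr a) f) x * (f - avg (rr a) f) x
          - 2 * ((f - avg R f) x * avg (rr a) (z a) x)
          + (z a - avg (rr a) (z a)) x * (z a - avg (rr a) (z a)) x) := by
    rw [Finset.sum_comm]
    refine Finset.sum_congr rfl fun a _ => ?_
    unfold jsTerm dot
    rw [Finset.sum_add_distrib, Finset.sum_sub_distrib, Finset.mul_sum]
  rw [hL, hRt]
  refine sum_le_sum_of_cls hR _ _ fun x0 => ?_
  have h := hloc x0
  -- rewrite the restricted objects
  have a0 : avg RT (fun y : Fib R x0 => f y.1) = fun y : Fib R x0 => avg R f y.1 :=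
    funext (avg_fib_self hR x0 f)
  have a0' : avg RT (fun y : Fib R x0 => Z y.1) = fun y : Fib R x0 => avg R Z y.1 :=
    funext (avg_fib_self hR x0 Z)
  have a1 : ∀ a, avg (relFib (rr a) R x0) (fun y : Fib R x0 => f y.1)
      = fun y : Fib R x0 => avg (rr a) f y.1 := fun a =>
    funext (avg_fib hR (hle a) x0 f)
  have a2 : ∀ a, avg (relFib (rr a) R x0) (fun y : Fib R x0 => z a y.1)
      = fun y : Fib R x0 => avg (rr a) (z a) y.1 := fun a =>
    funext (avg_fib hR (hle a) x0 (z a))
  have b0 : ((fun y : Fib R x0 => f y.1) - fun y : Fib R x0 => avg R f y.1)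
      = fun y : Fib R x0 => (f - avg R f) y.1 := rfl
  have b0' : ((fun y : Fib R x0 => Z y.1) - fun y : Fib R x0 => avg R Z y.1)
      = fun y : Fib R x0 => (Z - avg R Z) y.1 := rfl
  have b1 : ∀ a, ((fun y : Fib R x0 => f y.1) - fun y : Fib R x0 => avg (rr a) f y.1)
      = fun y : Fib R x0 => (f - avg (rr a) f) y.1 := fun _ => rfl
  have b2 : ∀ a, ((fun y : Fib R x0 => z a y.1) - fun y : Fib R x0 => avg (rr a) (z a) y.1)
      = fun y : Fib R x0 => (z a - avg (rr a) (z a)) y.1 := fun _ => rfl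
  unfold jsTerm at h
  simp only [a0, a0', a1, a2, b0, b0', b1, b2, dot_fib] at h
  rw [Finset.sum_add_distrib, Finset.sum_comm]
  refine h.trans (le_of_eq ?_)
  refine Finset.sum_congr rfl fun a _ => ?_
  rw [Finset.sum_add_distrib, Finset.sum_sub_distrib, Finset.mul_sum]

/-- if all classes of `rr` are singletons then `avg rr` is the identity -/
theorem avg_of_singleton {rr : Ω → Ω → Prop} (hrr : Equivalence rr)
    (h : ∀ x y, rr x y → x = y) (f : Ω → ℝ) : avg rr f = f :=
  avg_of_inv hrr (fun x y hxy => by rw [h x y hxy])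

/-- `jsTerm` only depends on the relations up to equivalence -/
theorem jsTerm_congr {R R' rr rr' : Ω → Ω → Prop} (hR : ∀ x y, R x y ↔ R' x y)
    (hrr : ∀ x y, rr x y ↔ rr' x y) (f z : Ω → ℝ) : jsTerm R rr f z = jsTerm R' rr' f z := by
  unfold jsTerm
  rw [avg_congr hR f, avg_congr hrr f, avg_congr hrr z]

/-- singleton classes and `z = 0`: the term vanishes -/
theorem jsTerm_singleton_zero {R rr : Ω → Ω → Prop} (hrr : Equivalence rr)
    (h : ∀ x y, rr x y → x = y) (f : Ω → ℝ) : jsTerm R rr f 0 = 0 := by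
  unfold jsTerm
  rw [avg_of_singleton hrr h f, avg_of_singleton hrr h 0]
  simp [dot]

/-- singleton classes and `z` constant: the term vanishes -/
theorem jsTerm_singleton_const {rr : Ω → Ω → Prop} (hrr : Equivalence rr)
    (h : ∀ x y, rr x y → x = y) (f z : Ω → ℝ) (hz : Inv RT z) : jsTerm RT rr f z = 0 := by
  unfold jsTerm
  rw [avg_of_singleton hrr h f, avg_of_singleton hrr h z]
  have h1 : dot (f - avg RT f) z = 0 := by
    rw [← avg_of_inv RT_equiv hz, ← avg_symm RT_equiv, avg_sub, avg_idem RT_equiv, sub_self,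
      dot_zero_left]
  rw [h1]
  simp [dot]

end P328JS
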