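import Vale.Agent.Lib.P328.JS.Defs

/-!
# P328, chain (HEX) ==> (JS): the classes of `R3 p q l` are hexagons
-/

namespace P328JS

open P335 P328RC Finset

variable {κ : Type*} [Fintype κ] {t : κ → ℕ} {r : ℕ}

/-- the caps of the three sites -/
def t3 (t : κ → ℕ) (p q l : κ) : Fin 3 → ℕ := ![t p, t q, t l]

/-- split a sum into three sites and the rest -/
theorem sum_split_three [DecidableEq κ] (p q l : κ) (hpq : p ≠ q) (hpl : p ≠ l) (hql : q ≠ l)
    (f : κ → ℕ) :
    ∑ i, f i = f p + f q + f l + ∑ i ∈ ((univ.erase p).erase q).erase l, f i := by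
  rw [← Finset.add_sum_erase univ f (mem_univ p),
    ← Finset.add_sum_erase (univ.erase p) f (mem_erase.2 ⟨hpq.symm, mem_univ _⟩),
    ← Finset.add_sum_erase ((univ.erase p).erase q) f
      (mem_erase.2 ⟨hql.symm, mem_erase.2 ⟨hpl.symm, mem_univ _⟩⟩)]
  ring

/-- a class of `R3 p q l` is the three-site system with caps `t p, t q, t l` -/
theorem exists_sliceEquiv (p q l : κ) (hpq : p ≠ q) (hpl : p ≠ l) (hql : q ≠ l) (x0 : Y2 t r) :
    ∃ e : Fib (R3 p q l) x0 ≃ Y2 (t3 t p q l) (x0.1 p + x0.1 q + x0.1 l),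
      ∀ y, (e y).1 0 = y.1.1 p ∧ (e y).1 1 = y.1.1 q ∧ (e y).1 2 = y.1.1 l := by
  classical
  have hrest : ∀ y : κ → ℕ, (∀ k, k ≠ p → k ≠ q → k ≠ l → x0.1 k = y k) →
      ∑ i ∈ ((univ.erase p).erase q).erase l, y i
        = ∑ i ∈ ((univ.erase p).erase q).erase l, x0.1 i := by
    intro y hy
    refine Finset.sum_congr rfl fun i hi => ?_
    have h3 : i ≠ l := (mem_erase.1 hi).1
    have h2 : i ≠ q := (mem_erase.1 (mem_erase.1 hi).2).1
    have h1 : i ≠ p := (mem_erase.1 (mem_erase.1 (mem_erase.1 hi).2).2).1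
    exact (hy i h1 h2 h3).symm
  have hx0 := x0.2.2
  rw [sum_split_three p q l hpq hpl hql] at hx0
  let F : Fib (R3 p q l) x0 → Y2 (t3 t p q l) (x0.1 p + x0.1 q + x0.1 l) := fun y =>
    ⟨![y.1.1 p, y.1.1 q, y.1.1 l], by
      intro j
      fin_cases j
      · exact y.1.2.1 p
      · exact y.1.2.1 q
      · exact y.1.2.1 l, by
      have h1 := y.1.2.2
      rw [sum_split_three p q l hpq hpl hql, hrest y.1.1 y.2] at h1
      rw [Fin.sum_univ_three]
      simp only [Matrix.cons_val_zero, Matrix.cons_val_one, Matrix.cons_val]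
      omega⟩
  have hF : Function.Bijective F := by
    constructor
    · intro y y' h
      have h0 : y.1.1 p = y'.1.1 p := congrArg (fun x : Y2 (t3 t p q l) _ => x.1 0) h
      have h1 : y.1.1 q = y'.1.1 q := congrArg (fun x : Y2 (t3 t p q l) _ => x.1 1) h
      have h2 : y.1.1 l = y'.1.1 l := congrArg (fun x : Y2 (t3 t p q l) _ => x.1 2) h
      apply Subtype.ext
      apply Subtype.ext
      funext k
      by_cases k1 : k = p
      · rw [k1]; exact h0
      by_cases k2 : k = q
      · rw [k2]; exact h1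
      by_cases k3 : k = l
      · rw [k3]; exact h2
      exact (y.2 k k1 k2 k3).symm.trans (y'.2 k k1 k2 k3)
    · intro x
      let Z : κ → ℕ := fun k =>
        if k = p then x.1 0 else if k = q then x.1 1 else if k = l then x.1 2 else x0.1 k
      have Zp : Z p = x.1 0 := by simp [Z]
      have Zq : Z q = x.1 1 := by simp [Z, hpq.symm]
      have Zl : Z l = x.1 2 := by simp [Z, hpl.symm, hql.symm]
      have Zr : ∀ k, k ≠ p → k ≠ q → k ≠ l → Z k = x0.1 k := fun k h1 h2 h3 => by
        simp [Z, h1, h2, h3]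
      have hle : ∀ k, Z k ≤ t k := by
        intro k
        by_cases k1 : k = p
        · rw [k1, Zp]; exact x.2.1 0
        by_cases k2 : k = q
        · rw [k2, Zq]; exact x.2.1 1
        by_cases k3 : k = l
        · rw [k3, Zl]; exact x.2.1 2
        rw [Zr k k1 k2 k3]; exact x0.2.1 k
      have hsum : ∑ k, Z k = r := by
        rw [sum_split_three p q l hpq hpl hql, hrest Z (fun k h1 h2 h3 => (Zr k h1 h2 h3).symm),
          Zp, Zq, Zl]
        have h1 := x.2.2
        rw [Fin.sum_univ_three] at h1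
        omega
      refine ⟨⟨⟨Z, hle, hsum⟩, fun k h1 h2 h3 => (Zr k h1 h2 h3).symm⟩, ?_⟩
      apply Subtype.ext
      funext j
      fin_cases j
      · exact Zp
      · exact Zq
      · exact Zl
  exact ⟨Equiv.ofBijective F hF, fun y => ⟨rfl, rfl, rfl⟩⟩

end P328JS
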