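import Vale.Agent.Lib.P328.JS.Key
import Vale.Agent.Lib.P328.JS.Slice

/-!
# P328, chain (HEX) ==> (JS): (BL-2) (KEY) in every class of `R3 p q l`
-/

namespace P328JS

open P335 P328RC Finset

variable {κ : Type*} [Fintype κ] {t : κ → ℕ} {r : ℕ}

omit [Fintype κ] in
theorem t3_zero (t : κ → ℕ) (p q l : κ) : t3 t p q l 0 = t p := rfl
omit [Fintype κ] in
theorem t3_one (t : κ → ℕ) (p q l : κ) : t3 t p q l 1 = t q := rfl
omit [Fintype κ] in
theorem t3_two (t : κ → ℕ) (p q l : κ) : t3 t p q l 2 = t l := rfl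

/-- class sums of (KEY) -/
theorem BL_key_sum (p q l : κ) (hpq : p ≠ q) (hpl : p ≠ l) (hql : q ≠ l) (ζpq ζpl ζql : ℕ → ℝ)
    (x0 : Y2 t r) :
    ∑ y ∈ cls (R3 p q l) x0, ZT (t p) (t q) (t l) ζpq ζpl ζql (sig p q l y)
      = ∑ y ∈ cls (R3 p q l) x0, ζpq (lat2 (p, q) y)
        + ∑ y ∈ cls (R3 p q l) x0, ζpl (lat2 (p, l) y)
        + ∑ y ∈ cls (R3 p q l) x0, ζql (lat2 (q, l) y) := by
  obtain ⟨e, he⟩ := exists_sliceEquiv p q l hpq hpl hql x0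
  have hpq' : ∀ y : Fib (R3 p q l) x0, lat2 (p, q) y.1 = lat2 ((0 : Fin 3), (1 : Fin 3)) (e y) := by
    intro y
    obtain ⟨h0, h1, h2⟩ := he y
    unfold lat2
    simp only [h0, h1, t3_one]
  have hpl' : ∀ y : Fib (R3 p q l) x0, lat2 (p, l) y.1 = lat2 ((0 : Fin 3), (2 : Fin 3)) (e y) := by
    intro y
    obtain ⟨h0, h1, h2⟩ := he y
    unfold lat2
    simp only [h0, h2, t3_two]
  have hql' : ∀ y : Fib (R3 p q l) x0, lat2 (q, l) y.1 = lat2 ((1 : Fin 3), (2 : Fin 3)) (e y) := by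
    intro y
    obtain ⟨h0, h1, h2⟩ := he y
    unfold lat2
    simp only [h1, h2, t3_two]
  have hsig : ∀ y : Fib (R3 p q l) x0, sig p q l y.1 = sig 0 1 2 (e y) := by
    intro y
    obtain ⟨h0, h1, h2⟩ := he y
    unfold sig
    rw [hpq' y, h0, h1, h2, t3_two]
  have hk := key_sum (t3 t p q l) (x0.1 p + x0.1 q + x0.1 l) ζpq ζpl ζql
  rw [t3_zero, t3_one, t3_two] at hk
  have e1 : ∑ y ∈ cls (R3 p q l) x0, ZT (t p) (t q) (t l) ζpq ζpl ζql (sig p q l y)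
      = ∑ z : Y2 (t3 t p q l) (x0.1 p + x0.1 q + x0.1 l),
          ZT (t p) (t q) (t l) ζpq ζpl ζql (sig 0 1 2 z) := by
    rw [sum_cls_eq_sum_fib,
      ← Equiv.sum_comp e (fun z => ZT (t p) (t q) (t l) ζpq ζpl ζql (sig 0 1 2 z))]
    exact Finset.sum_congr rfl (fun y _ => by rw [hsig y])
  have e2 : ∑ y ∈ cls (R3 p q l) x0, ζpq (lat2 (p, q) y)
      = ∑ z : Y2 (t3 t p q l) (x0.1 p + x0.1 q + x0.1 l),
          ζpq (lat2 ((0 : Fin 3), (1 : Fin 3)) z) := by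
    rw [sum_cls_eq_sum_fib,
      ← Equiv.sum_comp e (fun z => ζpq (lat2 ((0 : Fin 3), (1 : Fin 3)) z))]
    exact Finset.sum_congr rfl (fun y _ => by rw [hpq' y])
  have e3 : ∑ y ∈ cls (R3 p q l) x0, ζpl (lat2 (p, l) y)
      = ∑ z : Y2 (t3 t p q l) (x0.1 p + x0.1 q + x0.1 l),
          ζpl (lat2 ((0 : Fin 3), (2 : Fin 3)) z) := by
    rw [sum_cls_eq_sum_fib,
      ← Equiv.sum_comp e (fun z => ζpl (lat2 ((0 : Fin 3), (2 : Fin 3)) z))]
    exact Finset.sum_congr rfl (fun y _ => by rw [hpl' y])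
  have e4 : ∑ y ∈ cls (R3 p q l) x0, ζql (lat2 (q, l) y)
      = ∑ z : Y2 (t3 t p q l) (x0.1 p + x0.1 q + x0.1 l),
          ζql (lat2 ((1 : Fin 3), (2 : Fin 3)) z) := by
    rw [sum_cls_eq_sum_fib,
      ← Equiv.sum_comp e (fun z => ζql (lat2 ((1 : Fin 3), (2 : Fin 3)) z))]
    exact Finset.sum_congr rfl (fun y _ => by rw [hql' y])
  rw [e1, e2, e3, e4]
  exact hk

/-- (BL-2) (KEY) in every class of `R3 p q l` -/
theorem BL_key (p q l : κ) (hpq : p ≠ q) (hpl : p ≠ l) (hql : q ≠ l) (ζpq ζpl ζql : ℕ → ℝ) :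
    avg (R3 p q l) (fun x : Y2 t r => ZT (t p) (t q) (t l) ζpq ζpl ζql (sig p q l x))
      = avg (R3 p q l) (fun x : Y2 t r => ζpq (lat2 (p, q) x))
        + avg (R3 p q l) (fun x : Y2 t r => ζpl (lat2 (p, l) x))
        + avg (R3 p q l) (fun x : Y2 t r => ζql (lat2 (q, l) x)) := by
  funext x0
  simp only [Pi.add_apply]
  unfold avg
  rw [BL_key_sum p q l hpq hpl hql ζpq ζpl ζql x0, add_div, add_div]

end P328JS
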