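import Vale.Agent.Lib.P328.JS.BLSlice
import Vale.Agent.Lib.P328.JS.BLKey

/-!
# P328, chain (HEX) ==> (JS): the block lemma (BL)
-/

namespace P328JS

open P335 P328RC Finset

variable {κ : Type*} [Fintype κ] {t : κ → ℕ} {r : ℕ}

/-- (BL) -/
theorem BL (hHEX : HEX) (p q l : κ) (hpq : p ≠ q) (hpl : p ≠ l) (hql : q ≠ l)
    (g : Y2 t r → ℝ) (ζpq ζpl ζql : ℕ → ℝ) :
    jsTerm RT (R3 p q l) g (fun x => ZT (t p) (t q) (t l) ζpq ζpl ζql (sig p q l x))
    ≤ jsTerm RT (RJ (p, q)) g (fun x => ζpq (lat2 (p, q) x))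
      + jsTerm RT (RJ (p, l)) g (fun x => ζpl (lat2 (p, l) x))
      + jsTerm RT (RJ (q, l)) g (fun x => ζql (lat2 (q, l) x)) := by
  have h := A5 (R3_equiv (t := t) (r := r) p q l) (univ : Finset (Fin 3))
    (fun a : Fin 3 => RJ (![(p, q), (p, l), (q, l)] a))
    (fun a => RJ_equiv _)
    (by
      intro a x y hxy k h1 h2 h3
      fin_cases a
      · exact hxy k h1 h2
      · exact hxy k h1 h3
      · exact hxy k h2 h3)
    g (fun x => ZT (t p) (t q) (t l) ζpq ζpl ζql (sig p q l x))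
    (fun a : Fin 3 => ![(fun x : Y2 t r => ζpq (lat2 (p, q) x)),
      (fun x : Y2 t r => ζpl (lat2 (p, l) x)), (fun x : Y2 t r => ζql (lat2 (q, l) x))] a)
    (by
      rw [Fin.sum_univ_three]
      exact BL_slice hHEX p q l hpq hpl hql g ζpq ζpl ζql)
    (by
      rw [Fin.sum_univ_three]
      exact BL_key p q l hpq hpl hql ζpq ζpl ζql)
  rw [Fin.sum_univ_three] at h
  exact h

end P328JS
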