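import Vale.Agent.Lib.P328.JS.Abs2
import Vale.Agent.Lib.P328.JS.Slice

/-!
# P328, chain (HEX) ==> (JS): (BL-1) the hexagon inequality in every class of `R3 p q l`
-/

namespace P328JS

open P335 P328RC Finset

variable {κ : Type*} [Fintype κ] {t : κ → ℕ} {r : ℕ}

/-- transport of the pair relations along a slice equivalence -/
theorem slice_rel {p q l : κ} {x0 : Y2 t r} {a : ℕ}
    (e : Fib (R3 p q l) x0 ≃ Y2 (t3 t p q l) a)
    (u v w : κ) (i j m : Fin 3) (hu : ∀ y, (e y).1 i = y.1.1 u) (hv : ∀ y, (e y).1 j = y.1.1 v)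
    (hw : ∀ y, (e y).1 m = y.1.1 w)
    (hcov : ∀ k : Fin 3, k = i ∨ k = j ∨ k = m)
    (hcov' : ∀ k : κ, k ≠ u → k ≠ v → k ≠ w → (k ≠ p ∧ k ≠ q ∧ k ≠ l))
    (hwu : w ≠ u) (hwv : w ≠ v) (hmi : m ≠ i) (hmj : m ≠ j)
    (x y : Fib (R3 p q l) x0) :
    relFib (RJ (u, v)) (R3 p q l) x0 x y ↔ RJ (i, j) (e x) (e y) := by
  constructor
  · intro h k h1 h2
    rcases hcov k with rfl | rfl | rfl
    · exact absurd rfl h1
    · exact absurd rfl h2
    · rw [hw x, hw y]
      exact h w hwu hwv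
  · intro h k h1 h2
    by_cases hk : k = w
    · subst hk
      have := h m hmi hmj
      rw [hw x, hw y] at this
      exact this
    · obtain ⟨c1, c2, c3⟩ := hcov' k h1 h2 hk
      exact (x.2 k c1 c2 c3).symm.trans (y.2 k c1 c2 c3)

/-- (BL-1) the hexagon inequality in every class of `R3 p q l`, summed -/
theorem BL_slice (hHEX : HEX) (p q l : κ) (hpq : p ≠ q) (hpl : p ≠ l) (hql : q ≠ l)
    (g : Y2 t r → ℝ) (ζpq ζpl ζql : ℕ → ℝ) :
    dot (g - avg (R3 p q l) g) (g - avg (R3 p q l) g)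
      + dot ((fun x : Y2 t r => ZT (t p) (t q) (t l) ζpq ζpl ζql (sig p q l x))
            - avg (R3 p q l) (fun x : Y2 t r => ZT (t p) (t q) (t l) ζpq ζpl ζql (sig p q l x)))
          ((fun x : Y2 t r => ZT (t p) (t q) (t l) ζpq ζpl ζql (sig p q l x))
            - avg (R3 p q l) (fun x : Y2 t r => ZT (t p) (t q) (t l) ζpq ζpl ζql (sig p q l x)))
    ≤ jsTerm (R3 p q l) (RJ (p, q)) g (fun x => ζpq (lat2 (p, q) x))
      + jsTerm (R3 p q l) (RJ (p, l)) g (fun x => ζpl (lat2 (p, l) x))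
      + jsTerm (R3 p q l) (RJ (q, l)) g (fun x => ζql (lat2 (q, l) x)) := by
  have main := localise2 (R3_equiv (t := t) (r := r) p q l) (Finset.univ : Finset (Fin 3))
    (fun a => (![RJ (p, q), RJ (p, l), RJ (q, l)] : Fin 3 → Y2 t r → Y2 t r → Prop) a) ?_ ?_ g
    (fun x : Y2 t r => ZT (t p) (t q) (t l) ζpq ζpl ζql (sig p q l x))
    (fun a => (![fun x => ζpq (lat2 (p, q) x), fun x => ζpl (lat2 (p, l) x),
      fun x => ζql (lat2 (q, l) x)] : Fin 3 → Y2 t r → ℝ) a) ?_
  · simpa [Fin.sum_univ_three] using main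
  · intro a
    fin_cases a
    · exact RJ_equiv _
    · exact RJ_equiv _
    · exact RJ_equiv _
  · intro a x y h
    fin_cases a
    · exact fun k h1 h2 _ => h k h1 h2
    · exact fun k h1 _ h3 => h k h1 h3
    · exact fun k _ h2 h3 => h k h2 h3
  · intro x0
    obtain ⟨e, he⟩ := exists_sliceEquiv p q l hpq hpl hql x0
    set g' : Y2 (t3 t p q l) (x0.1 p + x0.1 q + x0.1 l) → ℝ := fun x => g (e.symm x).1 with hg'
    have h0 : ∀ y, (e y).1 0 = y.1.1 p := fun y => (he y).1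
    have h1 : ∀ y, (e y).1 1 = y.1.1 q := fun y => (he y).2.1
    have h2 : ∀ y, (e y).1 2 = y.1.1 l := fun y => (he y).2.2
    have hf : (fun y : Fib (R3 p q l) x0 => g y.1) = fun y => g' (e y) := by
      funext y
      simp [hg']
    have l01 : ∀ y, lat2 (0, 1) (e y) = lat2 (p, q) y.1 := by
      intro y
      simp only [lat2, h0, h1]
      rfl
    have l02 : ∀ y, lat2 (0, 2) (e y) = lat2 (p, l) y.1 := by
      intro y
      simp only [lat2, h0, h2]
      rfl
    have l12 : ∀ y, lat2 (1, 2) (e y) = lat2 (q, l) y.1 := by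
      intro y
      simp only [lat2, h1, h2]
      rfl
    have hsig : ∀ y, sig 0 1 2 (e y) = sig p q l y.1 := by
      intro y
      simp only [sig, l01, h0, h1, h2]
      rfl
    set Z' : Y2 (t3 t p q l) (x0.1 p + x0.1 q + x0.1 l) → ℝ := fun x =>
      ZT (t3 t p q l 0) (t3 t p q l 1) (t3 t p q l 2) ζpq ζpl ζql (sig 0 1 2 x) with hZ'
    have hZ : (fun y : Fib (R3 p q l) x0 => ZT (t p) (t q) (t l) ζpq ζpl ζql (sig p q l y.1))
        = fun y => Z' (e y) := by
      funext y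
      simp only [hZ', hsig]
      rfl
    have z01 : (fun y : Fib (R3 p q l) x0 => ζpq (lat2 (p, q) y.1))
        = fun y => (fun x : Y2 (t3 t p q l) (x0.1 p + x0.1 q + x0.1 l) => ζpq (lat2 (0, 1) x)) (e y) := by
      funext y
      simp only [l01]
    have z02 : (fun y : Fib (R3 p q l) x0 => ζpl (lat2 (p, l) y.1))
        = fun y => (fun x : Y2 (t3 t p q l) (x0.1 p + x0.1 q + x0.1 l) => ζpl (lat2 (0, 2) x)) (e y) := by
      funext y
      simp only [l02]
    have z12 : (fun y : Fib (R3 p q l) x0 => ζql (lat2 (q, l) y.1))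
        = fun y => (fun x : Y2 (t3 t p q l) (x0.1 p + x0.1 q + x0.1 l) => ζql (lat2 (1, 2) x)) (e y) := by
      funext y
      simp only [l12]
    have key := hHEX (t3 t p q l) (x0.1 p + x0.1 q + x0.1 l) g' ζpq ζpl ζql
    have cov : ∀ k : Fin 3, k = 0 ∨ k = 1 ∨ k = 2 := by
      intro k
      fin_cases k <;> simp
    rw [hf, hZ, var_equiv e (R := RT) (R' := RT) (fun _ _ => Iff.rfl) g',
      var_equiv e (R := RT) (R' := RT) (fun _ _ => Iff.rfl) Z']
    refine key.trans (le_of_eq ?_)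
    rw [Fin.sum_univ_three]
    have r01 := slice_rel e p q l 0 1 2 h0 h1 h2 cov (fun k a b c => ⟨a, b, c⟩)
      (Ne.symm hpl) (Ne.symm hql) (by decide) (by decide)
    have r02 := slice_rel e p l q 0 2 1 h0 h2 h1
      (fun k => by rcases cov k with h | h | h <;> simp [h]) (fun k a b c => ⟨a, c, b⟩)
      (Ne.symm hpq) hql (by decide) (by decide)
    have r12 := slice_rel e q l p 1 2 0 h1 h2 h0
      (fun k => by rcases cov k with h | h | h <;> simp [h]) (fun k a b c => ⟨c, a, b⟩)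
      hpq hpl (by decide) (by decide)
    have j01 := jsTerm_equiv e (R := RT) (R' := RT) (fun _ _ => Iff.rfl) r01 g'
      (fun x => ζpq (lat2 (0, 1) x))
    have j02 := jsTerm_equiv e (R := RT) (R' := RT) (fun _ _ => Iff.rfl) r02 g'
      (fun x => ζpl (lat2 (0, 2) x))
    have j12 := jsTerm_equiv e (R := RT) (R' := RT) (fun _ _ => Iff.rfl) r12 g'
      (fun x => ζql (lat2 (1, 2) x))
    rw [← j01, ← j02, ← j12, ← z01, ← z02, ← z12]
    rfl

end P328JS
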