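import Vale.Agent.Lib.P328.JS.Defs

/-!
# P328, chain (HEX) ==> (JS): (C2) the averagings of two disjoint pairs commute
-/

namespace P328JS

open P335 P328RC Finset

variable {κ : Type*} [Fintype κ] {t : κ → ℕ} {r : ℕ}

open Classical in
/-- replace the coordinates at the two sites `J` by those of `a` -/
noncomputable def repl (J : κ × κ) (a y : κ → ℕ) : κ → ℕ :=
  fun k => if k = J.1 ∨ k = J.2 then a k else y k

omit [Fintype κ] in
theorem repl_in1 (J : κ × κ) (a y : κ → ℕ) : repl J a y J.1 = a J.1 := by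
  simp [repl]

omit [Fintype κ] in
theorem repl_in2 (J : κ × κ) (a y : κ → ℕ) : repl J a y J.2 = a J.2 := by
  simp [repl]

omit [Fintype κ] in
theorem repl_out (J : κ × κ) (a y : κ → ℕ) (k : κ) (h1 : k ≠ J.1) (h2 : k ≠ J.2) :
    repl J a y k = y k := by
  simp [repl, h1, h2]

open Classical in
/-- splitting a sum over all sites at two distinct sites -/
theorem sum_split_pair (p q : κ) (hpq : p ≠ q) (f : κ → ℕ) :
    ∑ k, f k = f p + (f q + ∑ k ∈ (univ.erase p).erase q, f k) := by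
  have h1 : f p + ∑ k ∈ univ.erase p, f k = ∑ k, f k :=
    Finset.add_sum_erase univ f (Finset.mem_univ p)
  have hq : q ∈ univ.erase p := Finset.mem_erase.mpr ⟨fun h => hpq h.symm, Finset.mem_univ q⟩
  have h2 : f q + ∑ k ∈ (univ.erase p).erase q, f k = ∑ k ∈ univ.erase p, f k :=
    Finset.add_sum_erase (univ.erase p) f hq
  rw [← h1, ← h2]

/-- two functions which agree outside `J` and have the same total on `J` have the same sum -/
theorem sum_eq_of_agree (J : κ × κ) (hJ : J.1 ≠ J.2) (a b : κ → ℕ)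
    (h : ∀ k, k ≠ J.1 → k ≠ J.2 → a k = b k) :
    (∑ k, a k = ∑ k, b k) ↔ a J.1 + a J.2 = b J.1 + b J.2 := by
  classical
  rw [sum_split_pair J.1 J.2 hJ a, sum_split_pair J.1 J.2 hJ b]
  have hrest : ∑ k ∈ (univ.erase J.1).erase J.2, a k = ∑ k ∈ (univ.erase J.1).erase J.2, b k := by
    apply Finset.sum_congr rfl
    intro k hk
    have hk2 : k ≠ J.2 := (Finset.mem_erase.mp hk).1
    have hk1 : k ≠ J.1 := (Finset.mem_erase.mp (Finset.mem_erase.mp hk).2).1
    exact h k hk1 hk2
  rw [hrest]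
  constructor <;> intro h' <;> omega

theorem repl_le (J : κ × κ) (a y : Y2 t r) (k : κ) : repl J a.1 y.1 k ≤ t k := by
  classical
  by_cases h : k = J.1 ∨ k = J.2
  · have : repl J a.1 y.1 k = a.1 k := by simp [repl, h]
    rw [this]
    exact a.2.1 k
  · have : repl J a.1 y.1 k = y.1 k := by simp [repl, h]
    rw [this]
    exact y.2.1 k

open Classical in
/-- the replacement as a total map of the two-row system -/
noncomputable def replY (J : κ × κ) (a y : Y2 t r) : Y2 t r :=
  if h : ∑ k, repl J a.1 y.1 k = r then ⟨repl J a.1 y.1, repl_le J a y, h⟩ else y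

theorem replY_val (J : κ × κ) (hJ : J.1 ≠ J.2) (a y : Y2 t r)
    (h : a.1 J.1 + a.1 J.2 = y.1 J.1 + y.1 J.2) : (replY J a y).1 = repl J a.1 y.1 := by
  have hs : ∑ k, repl J a.1 y.1 k = r :=
    ((sum_eq_of_agree J hJ (repl J a.1 y.1) y.1
      (fun k h1 h2 => repl_out J a.1 y.1 k h1 h2)).2
      (by rw [repl_in1, repl_in2]; exact h)).trans y.2.2
  have e : replY J a y = ⟨repl J a.1 y.1, repl_le J a y, hs⟩ := dif_pos hs
  rw [e]

/-- related configurations have the same total on the pair -/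
theorem RJ_pair_sum (J : κ × κ) (hJ : J.1 ≠ J.2) (x y : Y2 t r) (h : RJ J x y) :
    x.1 J.1 + x.1 J.2 = y.1 J.1 + y.1 J.2 := by
  rw [← sum_eq_of_agree J hJ x.1 y.1 h, x.2.2, y.2.2]

/-- averaging over the pair `J0` preserves invariance under the disjoint pair `J` -/
theorem avg_preserves (J0 J : κ × κ) (hJ : J.1 ≠ J.2) (h11 : J.1 ≠ J0.1)
    (h12 : J.1 ≠ J0.2) (h21 : J.2 ≠ J0.1) (h22 : J.2 ≠ J0.2) (g : Y2 t r → ℝ)
    (hg : Inv (RJ J) g) : Inv (RJ J) (avg (RJ J0) g) := by
  have key : ∀ a b y : Y2 t r, RJ J a b → RJ J0 a y →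
      (replY J b y).1 = repl J b.1 y.1 := by
    intro a b y hab hay
    apply replY_val J hJ
    have e1 : a.1 J.1 = y.1 J.1 := hay J.1 h11 h12
    have e2 : a.1 J.2 = y.1 J.2 := hay J.2 h21 h22
    have e3 := RJ_pair_sum J hJ a b hab
    omega
  have step1 : ∀ a b y : Y2 t r, RJ J a b → RJ J0 a y → RJ J0 b (replY J b y) := by
    intro a b y hab hay k hk1 hk2
    rw [key a b y hab hay]
    by_cases c1 : k = J.1
    · rw [c1, repl_in1]
    by_cases c2 : k = J.2
    · rw [c2, repl_in2]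
    · rw [repl_out J _ _ k c1 c2, ← hay k hk1 hk2, hab k c1 c2]
  have step3 : ∀ a b y : Y2 t r, RJ J a b → RJ J0 a y → replY J a (replY J b y) = y := by
    intro a b y hab hay
    have hba : RJ J b a := (RJ_equiv J).symm hab
    have h1 := step1 a b y hab hay
    apply Subtype.ext
    rw [key b a _ hba h1]
    funext k
    by_cases c1 : k = J.1
    · rw [c1, repl_in1]
      exact hay J.1 h11 h12
    by_cases c2 : k = J.2
    · rw [c2, repl_in2]
      exact hay J.2 h21 h22
    · rw [repl_out J _ _ k c1 c2, key a b y hab hay, repl_out J _ _ k c1 c2]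
  intro x x' hxx'
  have hx'x : RJ J x' x := (RJ_equiv J).symm hxx'
  apply avg_eq_avg_of_bij (RJ_equiv J0) g x x' (replY J x') (replY J x)
  · intro y hy
    exact step1 x x' y hxx' hy
  · intro y hy
    exact step1 x' x y hx'x hy
  · intro y hy
    exact step3 x x' y hxx' hy
  · intro y hy
    exact step3 x' x y hx'x hy
  · intro y hy
    apply hg
    intro k c1 c2
    rw [key x x' y hxx' hy, repl_out J _ _ k c1 c2]

/-- (C2) the averagings of two disjoint pairs commute
(use `avg_comm_of_preserves` and `avg_eq_avg_of_bij`) -/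
theorem comm_disj (J0 J : κ × κ) (h0 : J0.1 ≠ J0.2) (hJ : J.1 ≠ J.2) (h11 : J.1 ≠ J0.1)
    (h12 : J.1 ≠ J0.2) (h21 : J.2 ≠ J0.1) (h22 : J.2 ≠ J0.2) (f : Y2 t r → ℝ) :
    avg (RJ J0) (avg (RJ J) f) = avg (RJ J) (avg (RJ J0) f) :=
  avg_comm_of_preserves (RJ_equiv J0) (RJ_equiv J)
    (fun g hg => avg_preserves J0 J hJ h11 h12 h21 h22 g hg) f

end P328JS
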