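import Vale.Agent.Lib.P328.JS.Abs
import Vale.Agent.Lib.P328.RC.Local

/-!
# P328, chain (HEX) ==> (JS): definitions

* `JSat t`: the two-row inequality (JS) with constant one for one fixed vector of caps `t`.
* `Iv`, `SJ`, `ZT`: the explicit averaging operators of the hexagon inequality.
* `sig p q l`: the depth of the triple `p, q, l`.
* `HEX`: the hexagon inequality (three sites).
* `R3`, `RS`: the relations agree outside the triple, same latent level.
* `tm`, `mrg`, `RM`, `latM`: merging the sites `p, q` on a level set of `lat2 (p, q)`.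
-/

namespace P328JS

open P335 P328RC Finset

/-- (JS) with constant one for the fixed caps `t` -/
def JSat {κ : Type*} [Fintype κ] [LinearOrder κ] (t : κ → ℕ) : Prop :=
  ∀ (s : ℕ) (g : Y2 t s → ℝ) (z : κ × κ → Y2 t s → ℝ),
    (∀ J x y, lat2 J x = lat2 J y → z J x = z J y) →
    dot (g - avg RT g) (g - avg RT g) ≤ ∑ J ∈ pr κ, jsTerm RT (RJ J) g (z J)

/-- the interval of levels `s` of the pair with caps `tp, tq` compatible with the depth `k` of the
triple (third cap `tl`): `max 0 (k - tl) ≤ s ≤ min (tp, tq, k, tp + tq - k)` -/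
def Iv (tp tq tl k : ℕ) : Finset ℕ :=
  (Finset.range (k + 1)).filter (fun s => s ≤ tp ∧ s ≤ tq ∧ s + k ≤ tp + tq ∧ k ≤ s + tl)

/-- average of `ζ` over `Iv` -/
noncomputable def SJ (tp tq tl : ℕ) (ζ : ℕ → ℝ) (k : ℕ) : ℝ :=
  (∑ s ∈ Iv tp tq tl k, ζ s) / ((Iv tp tq tl k).card : ℝ)

/-- the function of the depth attached to three functions of the three pair levels -/
noncomputable def ZT (tp tq tl : ℕ) (ζpq ζpl ζql : ℕ → ℝ) (k : ℕ) : ℝ :=
  SJ tp tq tl ζpq k + SJ tp tl tq ζpl k + SJ tq tl tp ζql k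

section sites

variable {κ : Type*} [Fintype κ] {t : κ → ℕ} {r : ℕ}

/-- depth of the triple `p, q, l` (merge `p, q` first) -/
def sig (p q l : κ) (x : Y2 t r) : ℕ :=
  lat2 (p, q) x + min (x.1 p + x.1 q - lat2 (p, q) x) (t l - x.1 l)

/-- agree outside the three sites -/
def R3 (p q l : κ) (x y : Y2 t r) : Prop := ∀ k, k ≠ p → k ≠ q → k ≠ l → x.1 k = y.1 k

theorem R3_equiv (p q l : κ) : Equivalence (R3 (t := t) (r := r) p q l) :=
  ⟨fun _ _ _ _ _ => rfl, fun h k h1 h2 h3 => (h k h1 h2 h3).symm,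
    fun h h' k h1 h2 h3 => (h k h1 h2 h3).trans (h' k h1 h2 h3)⟩

/-- same latent level of the pair `J` -/
def RS (J : κ × κ) (x y : Y2 t r) : Prop := lat2 J x = lat2 J y

theorem RS_equiv (J : κ × κ) : Equivalence (RS (t := t) (r := r) J) :=
  ⟨fun _ => rfl, fun h => h.symm, fun h h' => h.trans h'⟩

variable [DecidableEq κ]

/-- caps after merging `p, q` on the level `s` -/
def tm (t : κ → ℕ) (p q : κ) (s : ℕ) : κ → ℕ :=
  fun k => if k = p then t p + t q - 2 * s else if k = q then 0 else t k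

/-- the merged configuration -/
def mrg (p q : κ) (x : Y2 t r) : κ → ℕ :=
  fun k => if k = p then x.1 p + x.1 q - lat2 (p, q) x else if k = q then 0 else x.1 k

/-- same level of `(p, q)` and the merged configurations agree outside `J` -/
def RM (p q : κ) (J : κ × κ) (x y : Y2 t r) : Prop :=
  lat2 (p, q) x = lat2 (p, q) y ∧ ∀ k, k ≠ J.1 → k ≠ J.2 → mrg p q x k = mrg p q y k

theorem RM_equiv (p q : κ) (J : κ × κ) : Equivalence (RM (t := t) (r := r) p q J) :=
  ⟨fun _ => ⟨rfl, fun _ _ _ => rfl⟩, fun h => ⟨h.1.symm, fun k h1 h2 => (h.2 k h1 h2).symm⟩,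
    fun h h' => ⟨h.1.trans h'.1, fun k h1 h2 => (h.2 k h1 h2).trans (h'.2 k h1 h2)⟩⟩

/-- latent level of the pair `J` in the merged system -/
def latM (p q : κ) (J : κ × κ) (x : Y2 t r) : ℕ :=
  min (mrg p q x J.1) (tm t p q (lat2 (p, q) x) J.2 - mrg p q x J.2)

end sites

/-- **The hexagon inequality.**  Three sites `0 < 1 < 2` with caps `t`, total `a`; `g` arbitrary,
`ζ01, ζ02, ζ12` arbitrary functions of the three pair levels, `Z = ZT ...` evaluated at the depth. -/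
def HEX : Prop :=
  ∀ (t : Fin 3 → ℕ) (a : ℕ) (g : Y2 t a → ℝ) (ζ01 ζ02 ζ12 : ℕ → ℝ),
    dot (g - avg RT g) (g - avg RT g)
      + dot ((fun x : Y2 t a => ZT (t 0) (t 1) (t 2) ζ01 ζ02 ζ12 (sig 0 1 2 x))
            - avg RT (fun x : Y2 t a => ZT (t 0) (t 1) (t 2) ζ01 ζ02 ζ12 (sig 0 1 2 x)))
          ((fun x : Y2 t a => ZT (t 0) (t 1) (t 2) ζ01 ζ02 ζ12 (sig 0 1 2 x))
            - avg RT (fun x : Y2 t a => ZT (t 0) (t 1) (t 2) ζ01 ζ02 ζ12 (sig 0 1 2 x)))
    ≤ jsTerm RT (RJ (0, 1)) g (fun x => ζ01 (lat2 (0, 1) x))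
      + jsTerm RT (RJ (0, 2)) g (fun x => ζ02 (lat2 (0, 2) x))
      + jsTerm RT (RJ (1, 2)) g (fun x => ζ12 (lat2 (1, 2) x))

end P328JS
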