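import Vale.Agent.Lib.P328.JS.Abs2
import Vale.Agent.Lib.P328.JS.Defs

/-!
# P328, chain (HEX) ==> (JS): concrete facts on the two-row systems `Y2 t r`
-/

namespace P328JS

open P335 P328RC Finset

variable {κ : Type*} [Fintype κ] {t : κ → ℕ} {r : ℕ}

/-- the sum over all sites splits off the two sites `p ≠ q` -/
theorem sum_split_two [DecidableEq κ] (p q : κ) (hpq : p ≠ q) (f : κ → ℕ) :
    ∑ k, f k = f p + f q + ∑ k ∈ (univ.erase p).erase q, f k := by
  rw [← Finset.add_sum_erase univ f (mem_univ p),
    ← Finset.add_sum_erase (univ.erase p) f (Finset.mem_erase.2 ⟨hpq.symm, mem_univ q⟩)]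
  ring

/-- in every fibre of the pair `(p, q)` there is a point of level `0` -/
theorem exists_level_zero (p q : κ) (hpq : p ≠ q) (x : Y2 t r) :
    ∃ y : Y2 t r, RJ (p, q) x y ∧ lat2 (p, q) y = 0 := by
  classical
  set b := x.1 p + x.1 q with hb
  have hxp := x.2.1 p
  have hxq := x.2.1 q
  let y : κ → ℕ := fun k => if k = p then b - t q else if k = q then min b (t q) else x.1 k
  have yp : y p = b - t q := by simp [y]
  have yq : y q = min b (t q) := by simp [y, hpq.symm]
  have yk : ∀ k, k ≠ p → k ≠ q → y k = x.1 k := by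
    intro k h1 h2
    simp [y, h1, h2]
  have hle : ∀ j, y j ≤ t j := by
    intro j
    by_cases h1 : j = p
    · subst h1
      rw [yp]
      omega
    · by_cases h2 : j = q
      · subst h2
        rw [yq]
        exact min_le_right _ _
      · rw [yk j h1 h2]
        exact x.2.1 j
  have hsum : ∑ j, y j = r := by
    rw [← x.2.2, sum_split_two p q hpq y, sum_split_two p q hpq x.1, yp, yq]
    have : ∑ k ∈ (univ.erase p).erase q, y k = ∑ k ∈ (univ.erase p).erase q, x.1 k := by
      apply Finset.sum_congr rfl
      intro k hk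
      have h2 := (Finset.mem_erase.1 hk).1
      have h1 := (Finset.mem_erase.1 (Finset.mem_erase.1 hk).2).1
      exact yk k h1 h2
    rw [this]
    have : b - t q + min b (t q) = x.1 p + x.1 q := by
      rcases le_total b (t q) with h | h
      · rw [min_eq_left h]; omega
      · rw [min_eq_right h]; omega
    omega
  refine ⟨⟨y, hle, hsum⟩, ?_, ?_⟩
  · intro k h1 h2
    exact (yk k h1 h2).symm
  · show min (y p) (t q - y q) = 0
    rw [yp, yq]
    rcases le_total b (t q) with h | h
    · have : b - t q = 0 := by omega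
      rw [this]
      exact Nat.zero_min _
    · rw [min_eq_right h]
      simp

/-- (C1) every fibre of the pair `(p, q)` contains a point of level `0`; hence a function invariant
under `RJ (p, q)` and under `RS (p, q)` is constant (use `conn_of_sel`) -/
theorem conn_pq (p q : κ) (hpq : p ≠ q) (k : Y2 t r → ℝ) (h1 : Inv (RJ (p, q)) k)
    (h2 : Inv (RS (p, q)) k) : Inv RT k := by
  intro x y hxy
  obtain ⟨x0, _, hx0⟩ := exists_level_zero p q hpq x
  refine conn_of_sel (P := RJ (p, q)) (E := RS (p, q)) x0 ?_ k h1 h2 x y hxy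
  intro z
  obtain ⟨w, hw1, hw2⟩ := exists_level_zero p q hpq z
  exact ⟨w, hw1, hx0.trans hw2.symm⟩

/-- a pair containing a dummy site has singleton classes -/
theorem RJ_singleton (J : κ × κ) (hJ : J.1 ≠ J.2) (hd : t J.1 = 0 ∨ t J.2 = 0) (x y : Y2 t r)
    (h : RJ J x y) : x = y := by
  classical
  have hs : x.1 J.1 + x.1 J.2 = y.1 J.1 + y.1 J.2 := by
    have e1 := sum_split_two J.1 J.2 hJ x.1
    have e2 := sum_split_two J.1 J.2 hJ y.1
    rw [x.2.2] at e1
    rw [y.2.2] at e2
    have : ∑ k ∈ (univ.erase J.1).erase J.2, x.1 k = ∑ k ∈ (univ.erase J.1).erase J.2, y.1 k := by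
      apply Finset.sum_congr rfl
      intro k hk
      have h2 := (Finset.mem_erase.1 hk).1
      have h1 := (Finset.mem_erase.1 (Finset.mem_erase.1 hk).2).1
      exact h k h1 h2
    omega
  have x1 := x.2.1 J.1
  have x2 := x.2.1 J.2
  have y1 := y.2.1 J.1
  have y2 := y.2.1 J.2
  apply Subtype.ext
  funext k
  by_cases k1 : k = J.1
  · subst k1
    rcases hd with hd | hd <;> omega
  · by_cases k2 : k = J.2
    · subst k2
      rcases hd with hd | hd <;> omega
    · exact h k k1 k2

/-- the level of a pair containing a dummy site is `0` -/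
theorem lat2_dummy (J : κ × κ) (hd : t J.1 = 0 ∨ t J.2 = 0) (x : Y2 t r) : lat2 J x = 0 := by
  have x1 := x.2.1 J.1
  unfold lat2
  rcases hd with hd | hd
  · have : x.1 J.1 = 0 := by omega
    rw [this]
    exact Nat.zero_min _
  · rw [hd]
    simp

/-- a function of the level factors through the level -/
theorem exists_factor (J : κ × κ) (z : Y2 t r → ℝ) (hz : ∀ x y, lat2 J x = lat2 J y → z x = z y) :
    ∃ ζ : ℕ → ℝ, z = fun x => ζ (lat2 J x) := by
  classical
  refine ⟨fun n => if h : ∃ x : Y2 t r, lat2 J x = n then z h.choose else 0, ?_⟩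
  funext x
  have h : ∃ y : Y2 t r, lat2 J y = lat2 J x := ⟨x, rfl⟩
  simp only [dif_pos h]
  exact hz _ _ h.choose_spec.symm

/-- at most one active site: at most one configuration -/
theorem subsingleton_of_active (h : ∀ i j : κ, 0 < t i → 0 < t j → i = j) (x y : Y2 t r) :
    x = y := by
  classical
  apply Subtype.ext
  funext k
  by_cases hk : 0 < t k
  · have hx : ∀ z : Y2 t r, z.1 k = r := by
      intro z
      refine Eq.trans ?_ z.2.2
      symm
      apply Finset.sum_eq_single k
      · intro j _ hj
        have : ¬ 0 < t j := fun h0 => hj (h j k h0 hk)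
        have := z.2.1 j
        omega
      · intro h0
        exact absurd (mem_univ k) h0
    rw [hx x, hx y]
  · have a := x.2.1 k
    have b := y.2.1 k
    omega

end P328JS
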