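import Vale.Agent.Lib.P328.JS.Defs

/-!
# P328, chain (HEX) ==> (JS): (K1) the law of the level of a pair on a hexagon
-/

namespace P328JS

open P335 P328RC Finset

theorem kl_cover : ∀ p q l : Fin 3, p ≠ q → p ≠ l → q ≠ l → ∀ j, j = p ∨ j = q ∨ j = l := by
  decide

theorem kl_univ : ∀ p q l : Fin 3, p ≠ q → p ≠ l → q ≠ l →
    (univ : Finset (Fin 3)) = {p, q, l} := by
  decide

theorem kl_sum (f : Fin 3 → ℕ) (p q l : Fin 3) (hpq : p ≠ q) (hpl : p ≠ l) (hql : q ≠ l) :
    ∑ j, f j = f p + f q + f l := by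
  rw [kl_univ p q l hpq hpl hql, sum_insert (by simp [hpq, hpl]), sum_insert (by simp [hql]),
    sum_singleton]
  ring

/-- the configuration with prescribed values at the three sites -/
def klMk (p q : Fin 3) (u v w : ℕ) : Fin 3 → ℕ :=
  fun j => if j = p then u else if j = q then v else w

theorem klMk_p (p q : Fin 3) (u v w : ℕ) : klMk p q u v w p = u := by simp [klMk]

theorem klMk_q (p q : Fin 3) (hpq : p ≠ q) (u v w : ℕ) : klMk p q u v w q = v := by
  simp [klMk, hpq.symm]

theorem klMk_l (p q l : Fin 3) (hpl : p ≠ l) (hql : q ≠ l) (u v w : ℕ) :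
    klMk p q u v w l = w := by
  simp [klMk, hpl.symm, hql.symm]

open Classical in
/-- (K1) the law of the level of a pair -/
theorem card_lat (t : Fin 3 → ℕ) (a : ℕ) (p q l : Fin 3) (hpq : p ≠ q) (hpl : p ≠ l)
    (hql : q ≠ l) (s : ℕ) :
    (univ.filter (fun x : Y2 t a => lat2 (p, q) x = s)).card
      = ((range (a + 1)).filter
          (fun k => k + a ≤ t 0 + t 1 + t 2 ∧ s ∈ Iv (t p) (t q) (t l) k)).card := by
  have hT : t 0 + t 1 + t 2 = t p + t q + t l := by
    rw [← kl_sum t p q l hpq hpl hql, Fin.sum_univ_three]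
  rw [hT]
  apply Finset.card_bij (fun (x : Y2 t a) _ => s + min (x.1 p + x.1 q - s) (t l - x.1 l))
  · intro x hx
    have hs := kl_sum x.1 p q l hpq hpl hql
    have h1 := x.2.1 p
    have h2 := x.2.1 q
    have h3 := x.2.1 l
    have h4 := x.2.2
    have hx' := (Finset.mem_filter.1 hx).2
    simp only [lat2] at hx'
    simp only [Finset.mem_filter, Finset.mem_range, Iv]
    omega
  · intro x hx y hy hxy
    have hs := kl_sum x.1 p q l hpq hpl hql
    have h1 := x.2.1 p
    have h2 := x.2.1 q
    have h3 := x.2.1 l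
    have h4 := x.2.2
    have hs' := kl_sum y.1 p q l hpq hpl hql
    have h1' := y.2.1 p
    have h2' := y.2.1 q
    have h3' := y.2.1 l
    have h4' := y.2.2
    have hx' := (Finset.mem_filter.1 hx).2
    have hy' := (Finset.mem_filter.1 hy).2
    simp only [lat2] at hx' hy'
    apply Subtype.ext
    funext j
    rcases kl_cover p q l hpq hpl hql j with rfl | rfl | rfl <;> omega
  · intro k hk
    simp only [Finset.mem_filter, Finset.mem_range, Iv] at hk
    obtain ⟨hka, hkT, ⟨hsk, hsp, hsq, hskpq, hksl⟩⟩ := hk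
    -- the merged coordinate `w` and the third coordinate
    obtain ⟨w, c, hwc, hc, hw, hmin⟩ : ∃ w c : ℕ, w + c + s = a ∧ c ≤ t l ∧
        w + 2 * s ≤ t p + t q ∧ s + min w (t l - c) = k := by
      by_cases h : a ≤ s + t l
      · exact ⟨k - s, a - k, by omega, by omega, by omega, by omega⟩
      · exact ⟨k + a - 2 * s - t l, t l + s - k, by omega, by omega, by omega, by omega⟩
    -- the two first coordinates
    obtain ⟨u, v, hu, hv, huv, hlat⟩ : ∃ u v : ℕ, u ≤ t p ∧ v ≤ t q ∧ u + v = w + s ∧
        min u (t q - v) = s := by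
      by_cases h : w + s ≤ t q
      · exact ⟨s, w, by omega, by omega, by omega, by omega⟩
      · exact ⟨w + 2 * s - t q, t q - s, by omega, by omega, by omega, by omega⟩
    have e1 := klMk_p p q u v c
    have e2 := klMk_q p q hpq u v c
    have e3 := klMk_l p q l hpl hql u v c
    refine ⟨⟨klMk p q u v c, ?_, ?_⟩, ?_, ?_⟩
    · intro j
      rcases kl_cover p q l hpq hpl hql j with rfl | rfl | rfl <;> omega
    · rw [kl_sum _ p q l hpq hpl hql]
      omega
    · refine Finset.mem_filter.2 ⟨Finset.mem_univ _, ?_⟩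
      simp only [lat2]
      omega
    · simp only
      omega

end P328JS
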