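import Vale.Agent.Lib.P328.JS.Defs

/-!
# P328, chain (HEX) ==> (JS): (K2) the law of the depth on a hexagon
-/

namespace P328JS

open P335 P328RC Finset

/-- the basic facts on a configuration of three sites -/
theorem Y2_three_facts {t : Fin 3 → ℕ} {a : ℕ} (x : Y2 t a) :
    x.1 0 ≤ t 0 ∧ x.1 1 ≤ t 1 ∧ x.1 2 ≤ t 2 ∧ x.1 0 + x.1 1 + x.1 2 = a := by
  refine ⟨x.2.1 0, x.2.1 1, x.2.1 2, ?_⟩
  have h := x.2.2
  rwa [Fin.sum_univ_three] at h

/-- two configurations of three sites with the same entries are equal -/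
theorem Y2_three_ext {t : Fin 3 → ℕ} {a : ℕ} {x y : Y2 t a}
    (h0 : x.1 0 = y.1 0) (h1 : x.1 1 = y.1 1) (h2 : x.1 2 = y.1 2) : x = y := by
  apply Subtype.ext
  funext j
  fin_cases j
  · exact h0
  · exact h1
  · exact h2

/-- build a configuration of three sites -/
def mk3 (t : Fin 3 → ℕ) (a x0 x1 x2 : ℕ) (h0 : x0 ≤ t 0) (h1 : x1 ≤ t 1) (h2 : x2 ≤ t 2)
    (hs : x0 + x1 + x2 = a) : Y2 t a :=
  ⟨![x0, x1, x2], by
    refine ⟨?_, ?_⟩
    · intro j
      fin_cases j
      · simpa using h0
      · simpa using h1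
      · simpa using h2
    · rw [Fin.sum_univ_three]
      simpa using hs⟩

theorem lat2_01 {t : Fin 3 → ℕ} {a : ℕ} (x : Y2 t a) :
    lat2 ((0 : Fin 3), (1 : Fin 3)) x = min (x.1 0) (t 1 - x.1 1) := rfl

theorem sig_012 {t : Fin 3 → ℕ} {a : ℕ} (x : Y2 t a) :
    sig 0 1 2 x = min (x.1 0) (t 1 - x.1 1)
      + min (x.1 0 + x.1 1 - min (x.1 0) (t 1 - x.1 1)) (t 2 - x.1 2) := rfl

open Classical in
/-- (K2) the law of the depth -/
theorem card_sig (t : Fin 3 → ℕ) (a k : ℕ) :
    (univ.filter (fun x : Y2 t a => sig 0 1 2 x = k)).card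
      = if k ≤ a ∧ k + a ≤ t 0 + t 1 + t 2 then (Iv (t 0) (t 1) (t 2) k).card else 0 := by
  split_ifs with h
  · obtain ⟨hka, hkT⟩ := h
    apply Finset.card_bij (fun x _ => lat2 ((0 : Fin 3), (1 : Fin 3)) x)
    · intro x hx
      obtain ⟨h0, h1, h2, hs⟩ := Y2_three_facts x
      have hk : sig 0 1 2 x = k := (Finset.mem_filter.mp hx).2
      rw [sig_012] at hk
      rw [lat2_01]
      simp only [Iv, Finset.mem_filter, Finset.mem_range]
      omega
    · intro x hx y hy hxy
      obtain ⟨h0, h1, h2, hs⟩ := Y2_three_facts x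
      obtain ⟨g0, g1, g2, gs⟩ := Y2_three_facts y
      have hk : sig 0 1 2 x = k := (Finset.mem_filter.mp hx).2
      have gk : sig 0 1 2 y = k := (Finset.mem_filter.mp hy).2
      rw [sig_012] at hk gk
      simp only [lat2_01] at hxy
      apply Y2_three_ext <;> omega
    · intro s hs
      simp only [Iv, Finset.mem_filter, Finset.mem_range] at hs
      obtain ⟨hsk, hs0, hs1, hsk2, hks⟩ := hs
      by_cases hc : a - (min (a - s) (t 2) - (k - s)) ≤ t 1
      · refine ⟨mk3 t a s (a - (min (a - s) (t 2) - (k - s)) - s) (min (a - s) (t 2) - (k - s))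
          (by omega) (by omega) (by omega) (by omega), ?_, ?_⟩
        · rw [Finset.mem_filter]
          refine ⟨Finset.mem_univ _, ?_⟩
          rw [sig_012]
          simp only [mk3, Matrix.cons_val_zero, Matrix.cons_val_one, Matrix.cons_val]
          omega
        · rw [lat2_01]
          simp only [mk3, Matrix.cons_val_zero, Matrix.cons_val_one]
          omega
      · refine ⟨mk3 t a (a - (min (a - s) (t 2) - (k - s)) - (t 1 - s)) (t 1 - s)
          (min (a - s) (t 2) - (k - s)) (by omega) (by omega) (by omega) (by omega), ?_, ?_⟩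
        · rw [Finset.mem_filter]
          refine ⟨Finset.mem_univ _, ?_⟩
          rw [sig_012]
          simp only [mk3, Matrix.cons_val_zero, Matrix.cons_val_one, Matrix.cons_val]
          omega
        · rw [lat2_01]
          simp only [mk3, Matrix.cons_val_zero, Matrix.cons_val_one]
          omega
  · rw [Finset.card_eq_zero, Finset.filter_eq_empty_iff]
    intro x _ hk
    obtain ⟨h0, h1, h2, hs⟩ := Y2_three_facts x
    rw [sig_012] at hk
    apply h
    omega

end P328JS
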