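import Vale.Agent.Lib.P328.JS.KeyIv
import Vale.Agent.Lib.P328.JS.KeySig
import Vale.Agent.Lib.P328.JS.KeyLat

/-!
# P328, chain (HEX) ==> (JS): the counting identity (KEY) on a hexagon

`∑_x ζ (s_J x) = ∑_x (S_J ζ) (sigma x)` for each of the three pairs `J`.
-/

namespace P328JS

open P335 P328RC Finset

open Classical in
/-- summation along the fibres of a bounded statistic -/
theorem sum_comp_range {Ω : Type*} [Fintype Ω] (F : Ω → ℕ) (B : ℕ) (hB : ∀ x, F x < B)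
    (φ : ℕ → ℝ) :
    ∑ x : Ω, φ (F x) = ∑ s ∈ range B, ((univ.filter (fun x : Ω => F x = s)).card : ℝ) * φ s := by
  rw [← Finset.sum_fiberwise_of_maps_to (s := univ) (t := range B) (g := F)
    (fun x _ => Finset.mem_range.2 (hB x)) (fun x => φ (F x))]
  refine Finset.sum_congr rfl (fun s _ => ?_)
  rw [Finset.sum_congr rfl (g := fun _ => φ s)
    (fun x hx => by rw [(Finset.mem_filter.1 hx).2])]
  rw [Finset.sum_const, nsmul_eq_mul]

theorem coord_le_total {t : Fin 3 → ℕ} {a : ℕ} (x : Y2 t a) (j : Fin 3) : x.1 j ≤ a := by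
  have h := x.2.2
  calc x.1 j ≤ ∑ j, x.1 j :=
        Finset.single_le_sum (f := fun j => x.1 j) (fun _ _ => Nat.zero_le _) (mem_univ j)
    _ = a := h

theorem lat2_lt {t : Fin 3 → ℕ} {a : ℕ} (p q : Fin 3) (x : Y2 t a) : lat2 (p, q) x < a + 1 := by
  have h1 : lat2 (p, q) x ≤ x.1 p := Nat.min_le_left _ _
  have h2 := coord_le_total x p
  omega

theorem sig_lt {t : Fin 3 → ℕ} {a : ℕ} (x : Y2 t a) : sig 0 1 2 x < a + 1 := by
  have h1 : lat2 ((0 : Fin 3), (1 : Fin 3)) x ≤ x.1 0 := Nat.min_le_left _ _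
  have h2 : x.1 0 + x.1 1 + x.1 2 = a := by
    have h := x.2.2
    rw [Fin.sum_univ_three] at h
    exact h
  have h3 : min (x.1 0 + x.1 1 - lat2 ((0 : Fin 3), (1 : Fin 3)) x) (t 2 - x.1 2)
      ≤ x.1 0 + x.1 1 - lat2 ((0 : Fin 3), (1 : Fin 3)) x := Nat.min_le_left _ _
  unfold sig
  omega

theorem card_mul_SJ (tp tq tl : ℕ) (ζ : ℕ → ℝ) (k : ℕ) :
    ((Iv tp tq tl k).card : ℝ) * SJ tp tq tl ζ k = ∑ s ∈ Iv tp tq tl k, ζ s := by
  unfold SJ
  rcases Nat.eq_zero_or_pos (Iv tp tq tl k).card with h0 | h0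
  · rw [Finset.card_eq_zero.1 h0]
    simp
  · have h1 : ((Iv tp tq tl k).card : ℝ) ≠ 0 := by
      exact_mod_cast h0.ne'
    field_simp

/-- (KEY), generic form -/
theorem key_gen (t : Fin 3 → ℕ) (a : ℕ) (p q l : Fin 3) (hpq : p ≠ q) (hpl : p ≠ l)
    (hql : q ≠ l) (hc : ∀ k, (Iv (t p) (t q) (t l) k).card = (Iv (t 0) (t 1) (t 2) k).card)
    (ζ : ℕ → ℝ) :
    ∑ x : Y2 t a, ζ (lat2 (p, q) x) = ∑ x : Y2 t a, SJ (t p) (t q) (t l) ζ (sig 0 1 2 x) := by
  classical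
  rw [sum_comp_range (fun x : Y2 t a => lat2 (p, q) x) (a + 1) (lat2_lt p q) ζ,
    sum_comp_range (fun x : Y2 t a => sig 0 1 2 x) (a + 1) sig_lt (SJ (t p) (t q) (t l) ζ)]
  -- left side
  have hL : ∀ s ∈ range (a + 1),
      ((univ.filter (fun x : Y2 t a => lat2 (p, q) x = s)).card : ℝ) * ζ s
        = ∑ k ∈ range (a + 1),
            if k + a ≤ t 0 + t 1 + t 2 ∧ s ∈ Iv (t p) (t q) (t l) k then ζ s else 0 := by
    intro s _
    have h1 := card_lat t a p q l hpq hpl hql s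
    have h2 : (univ.filter (fun x : Y2 t a => lat2 (p, q) x = s)).card
        = ((range (a + 1)).filter
          (fun k => k + a ≤ t 0 + t 1 + t 2 ∧ s ∈ Iv (t p) (t q) (t l) k)).card := by
      rw [← h1]
    rw [h2, ← Finset.sum_filter, Finset.sum_const, nsmul_eq_mul]
  -- right side
  have hR : ∀ k ∈ range (a + 1),
      ((univ.filter (fun x : Y2 t a => sig 0 1 2 x = k)).card : ℝ) * SJ (t p) (t q) (t l) ζ k
        = ∑ s ∈ range (a + 1),
            if k + a ≤ t 0 + t 1 + t 2 ∧ s ∈ Iv (t p) (t q) (t l) k then ζ s else 0 := by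
    intro k hk
    have hka : k ≤ a := Nat.lt_succ_iff.1 (Finset.mem_range.1 hk)
    have h1 := card_sig t a k
    have h2 : (univ.filter (fun x : Y2 t a => sig 0 1 2 x = k)).card
        = if k ≤ a ∧ k + a ≤ t 0 + t 1 + t 2 then (Iv (t 0) (t 1) (t 2) k).card else 0 := by
      rw [← h1]
    rw [h2]
    by_cases hT : k + a ≤ t 0 + t 1 + t 2
    · rw [if_pos ⟨hka, hT⟩, ← hc k, card_mul_SJ]
      have h3 : ∀ s ∈ range (a + 1),
          (if k + a ≤ t 0 + t 1 + t 2 ∧ s ∈ Iv (t p) (t q) (t l) k then ζ s else 0)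
            = if s ∈ Iv (t p) (t q) (t l) k then ζ s else 0 := by
        intro s _
        simp [hT]
      rw [Finset.sum_congr rfl h3, ← Finset.sum_filter]
      refine Finset.sum_congr ?_ (fun _ _ => rfl)
      ext s
      simp only [Finset.mem_filter, Finset.mem_range]
      constructor
      · intro hs
        refine ⟨?_, hs⟩
        have h4 : s < k + 1 := Finset.mem_range.1 (Finset.mem_filter.1 hs).1
        omega
      · intro hs
        exact hs.2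
    · rw [if_neg (fun h => hT h.2)]
      have h3 : ∀ s ∈ range (a + 1),
          (if k + a ≤ t 0 + t 1 + t 2 ∧ s ∈ Iv (t p) (t q) (t l) k then ζ s else 0) = 0 := by
        intro s _
        simp [hT]
      rw [Finset.sum_congr rfl h3]
      simp
  rw [Finset.sum_congr rfl hL, Finset.sum_congr rfl hR, Finset.sum_comm]

theorem key01 (t : Fin 3 → ℕ) (a : ℕ) (ζ : ℕ → ℝ) :
    ∑ x : Y2 t a, ζ (lat2 (0, 1) x) = ∑ x : Y2 t a, SJ (t 0) (t 1) (t 2) ζ (sig 0 1 2 x) :=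
  key_gen t a 0 1 2 (by decide) (by decide) (by decide) (fun _ => rfl) ζ

theorem key02 (t : Fin 3 → ℕ) (a : ℕ) (ζ : ℕ → ℝ) :
    ∑ x : Y2 t a, ζ (lat2 (0, 2) x) = ∑ x : Y2 t a, SJ (t 0) (t 2) (t 1) ζ (sig 0 1 2 x) :=
  key_gen t a 0 2 1 (by decide) (by decide) (by decide) (fun k => card_Iv_symm1 _ _ _ k) ζ

theorem key12 (t : Fin 3 → ℕ) (a : ℕ) (ζ : ℕ → ℝ) :
    ∑ x : Y2 t a, ζ (lat2 (1, 2) x) = ∑ x : Y2 t a, SJ (t 1) (t 2) (t 0) ζ (sig 0 1 2 x) :=
  key_gen t a 1 2 0 (by decide) (by decide) (by decide) (fun k => card_Iv_symm2 _ _ _ k) ζ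

/-- (KEY) in the form used by (BL) -/
theorem key_sum (t : Fin 3 → ℕ) (a : ℕ) (ζ01 ζ02 ζ12 : ℕ → ℝ) :
    ∑ x : Y2 t a, ZT (t 0) (t 1) (t 2) ζ01 ζ02 ζ12 (sig 0 1 2 x)
      = ∑ x : Y2 t a, ζ01 (lat2 (0, 1) x) + ∑ x : Y2 t a, ζ02 (lat2 (0, 2) x)
        + ∑ x : Y2 t a, ζ12 (lat2 (1, 2) x) := by
  rw [key01, key02, key12]
  unfold ZT
  rw [Finset.sum_add_distrib, Finset.sum_add_distrib]

end P328JS
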