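import Vale.Agent.Lib.P328.JS.Defs

/-!
# P328, chain (HEX) ==> (JS): (K-C) symmetry of the number of admissible levels
-/

namespace P328JS

open P335 P328RC Finset

/-- `Iv` is an interval -/
theorem Iv_eq_Icc (tp tq tl k : ℕ) (hk : k ≤ tp + tq) :
    Iv tp tq tl k = Finset.Icc (k - tl) (min (min tp tq) (min k (tp + tq - k))) := by
  ext s
  simp only [Iv, Finset.mem_filter, Finset.mem_range, Finset.mem_Icc, le_min_iff]
  omega

theorem Iv_eq_empty (tp tq tl k : ℕ) (hk : ¬ k ≤ tp + tq) : Iv tp tq tl k = ∅ := by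
  ext s
  simp only [Iv, Finset.mem_filter, Finset.mem_range, Finset.notMem_empty, iff_false]
  omega

theorem card_Iv (tp tq tl k : ℕ) :
    (Iv tp tq tl k).card =
      if k ≤ tp + tq then min (min tp tq) (min k (tp + tq - k)) + 1 - (k - tl) else 0 := by
  split_ifs with hk
  · rw [Iv_eq_Icc tp tq tl k hk, Nat.card_Icc]
  · rw [Iv_eq_empty tp tq tl k hk, Finset.card_empty]

/-- (K-C) the number of admissible levels does not depend on the pair:
in the integers it is `max 0 (1 + min (tp, tq, tl, k, tp+tq-k, tp+tl-k, tq+tl-k, tp+tq+tl-2k))` -/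
theorem card_Iv_symm1 (tp tq tl k : ℕ) : (Iv tp tl tq k).card = (Iv tp tq tl k).card := by
  rw [card_Iv, card_Iv]
  split_ifs <;> omega

theorem card_Iv_symm2 (tp tq tl k : ℕ) : (Iv tq tl tp k).card = (Iv tp tq tl k).card := by
  rw [card_Iv, card_Iv]
  split_ifs <;> omega

end P328JS
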