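import Vale.Agent.Lib.P328.JS.Mrg

/-!
# P328, chain (HEX) ==> (JS): the level sets of `lat2 (p, q)` are two-row systems with the
sites `p, q` merged
-/

namespace P328JS

open P335 P328RC Finset

variable {κ : Type*} [Fintype κ] [DecidableEq κ] {t : κ → ℕ} {r : ℕ}

/-- the merging map on a level set -/
def lvlMap (p q : κ) (hpq : p ≠ q) (x0 : Y2 t r) (y : Fib (RS (p, q)) x0) :
    Y2 (tm t p q (lat2 (p, q) x0)) (r - lat2 (p, q) x0) :=
  ⟨mrg p q y.1, fun k => by
      have h : lat2 (p, q) x0 = lat2 (p, q) y.1 := y.2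
      rw [h]
      exact mrg_le p q hpq y.1 k, by
      have h : lat2 (p, q) x0 = lat2 (p, q) y.1 := y.2
      have h2 := sum_mrg p q hpq y.1
      rw [h]
      omega⟩

theorem lvlMap_bijective (p q : κ) (hpq : p ≠ q) (x0 : Y2 t r) :
    Function.Bijective (lvlMap p q hpq x0) := by
  have hqp : q ≠ p := fun h => hpq h.symm
  constructor
  · intro y y' h
    have h1 : ∀ k, mrg p q y.1 k = mrg p q y'.1 k := fun k =>
      congrArg (fun x : Y2 (tm t p q (lat2 (p, q) x0)) (r - lat2 (p, q) x0) => x.1 k) h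
    apply Subtype.ext
    have e1 : lat2 (p, q) x0 = lat2 (p, q) y.1 := y.2
    have e2 : lat2 (p, q) x0 = lat2 (p, q) y'.1 := y'.2
    exact mrg_inj p q hpq y.1 y'.1 (e1.symm.trans e2) h1
  · intro x'
    obtain ⟨s, hs⟩ : ∃ s, s = lat2 (p, q) x0 := ⟨_, rfl⟩
    have hs0 : lat2 (p, q) x0 = min (x0.1 p) (t q - x0.1 q) := rfl
    have hx0p := x0.2.1 p
    have hx0q := x0.2.1 q
    have hsp : s ≤ t p := by omega
    have hsq : s ≤ t q := by omega
    have hsr : s ≤ r := by
      have h2 := sum_mrg p q hpq x0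
      omega
    have hx'p : x'.1 p ≤ t p + t q - 2 * s := by
      have := x'.2.1 p
      simp only [tm, if_true] at this
      rw [hs]
      exact this
    have hx'q : x'.1 q = 0 := by
      have := x'.2.1 q
      simp only [tm, hqp, if_false, if_true] at this
      omega
    have hx'k : ∀ k, k ≠ p → k ≠ q → x'.1 k ≤ t k := by
      intro k h1 h2
      have := x'.2.1 k
      simp only [tm, h1, h2, if_false] at this
      exact this
    have hx'sum : ∑ k, x'.1 k = r - s := by
      rw [hs]
      exact x'.2.2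
    let z : κ → ℕ := fun k =>
      if k = p then (if x'.1 p ≤ t q - s then s else x'.1 p + 2 * s - t q)
      else if k = q then (if x'.1 p ≤ t q - s then x'.1 p else t q - s) else x'.1 k
    have zp : z p = (if x'.1 p ≤ t q - s then s else x'.1 p + 2 * s - t q) := by simp [z]
    have zq : z q = (if x'.1 p ≤ t q - s then x'.1 p else t q - s) := by simp [z, hqp]
    have zk : ∀ k, k ≠ p → k ≠ q → z k = x'.1 k := fun k h1 h2 => by simp [z, h1, h2]
    have hzle : ∀ k, z k ≤ t k := by
      intro k
      by_cases hkp : k = p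
      · rw [hkp, zp]
        split_ifs <;> omega
      by_cases hkq : k = q
      · rw [hkq, zq]
        split_ifs <;> omega
      · rw [zk k hkp hkq]
        exact hx'k k hkp hkq
    have hzsum : ∑ k, z k = r := by
      rw [sum_split2 p q hpq] at hx'sum
      rw [sum_split2 p q hpq]
      have hrest : ∑ k ∈ (univ.erase p).erase q, z k
          = ∑ k ∈ (univ.erase p).erase q, x'.1 k := by
        apply Finset.sum_congr rfl
        intro k hk
        have hkq : k ≠ q := (Finset.mem_erase.mp hk).1
        have hkp : k ≠ p := (Finset.mem_erase.mp (Finset.mem_erase.mp hk).2).1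
        exact zk k hkp hkq
      rw [hrest, zp, zq]
      split_ifs <;> omega
    let y0 : Y2 t r := ⟨z, hzle, hzsum⟩
    have hlat : lat2 (p, q) y0 = s := by
      have : lat2 (p, q) y0 = min (z p) (t q - z q) := rfl
      rw [this, zp, zq]
      split_ifs <;> omega
    have hRS : RS (p, q) x0 y0 := by
      unfold RS
      rw [hlat, hs]
    refine ⟨⟨y0, hRS⟩, ?_⟩
    apply Subtype.ext
    funext k
    have hgoal : (lvlMap p q hpq x0 ⟨y0, hRS⟩).1 k = mrg p q y0 k := rfl
    rw [hgoal]
    by_cases hkp : k = p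
    · rw [hkp]
      have : mrg p q y0 p = z p + z q - lat2 (p, q) y0 := by simp [mrg, y0]
      rw [this, hlat, zp, zq]
      split_ifs <;> omega
    by_cases hkq : k = q
    · rw [hkq, hx'q]
      simp [mrg, hqp]
    · have : mrg p q y0 k = z k := by simp [mrg, hkp, hkq, y0]
      rw [this, zk k hkp hkq]

/-- a level set of `lat2 (p, q)` is the merged two-row system.
Inverse map: `x' ↦ x`, `x k = x' k` off `p, q`, and with `s` the level,
`(x p, x q) = (s, x' p)` if `x' p ≤ t q - s`, else `(x' p + 2 s - t q, t q - s)`. -/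
theorem exists_lvlEquiv (p q : κ) (hpq : p ≠ q) (x0 : Y2 t r) :
    ∃ e : Fib (RS (p, q)) x0 ≃ Y2 (tm t p q (lat2 (p, q) x0)) (r - lat2 (p, q) x0),
      ∀ y k, (e y).1 k = mrg p q y.1 k :=
  ⟨Equiv.ofBijective (lvlMap p q hpq x0) (lvlMap_bijective p q hpq x0), fun _ _ => rfl⟩

end P328JS
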