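import Vale.Agent.Lib.P328.JS.Abs2
import Vale.Agent.Lib.P328.JS.LvlEquiv

/-!
# P328, chain (HEX) ==> (JS): (LEVEL) the induction hypothesis on all level sets, summed
-/

namespace P328JS

open P335 P328RC Finset

variable {κ : Type*} [Fintype κ] [DecidableEq κ] {t : κ → ℕ} {r : ℕ}

/-- the latent level of the merged system, read through a level equivalence -/
theorem lat2_lvl (p q : κ) (x0 : Y2 t r)
    (e : Fib (RS (p, q)) x0 ≃ Y2 (tm t p q (lat2 (p, q) x0)) (r - lat2 (p, q) x0))
    (he : ∀ y k, (e y).1 k = mrg p q y.1 k) (J : κ × κ) (y : Fib (RS (p, q)) x0) :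
    lat2 J (e y) = latM p q J y.1 := by
  have h0 : lat2 (p, q) x0 = lat2 (p, q) y.1 := y.2
  unfold latM
  rw [← h0]
  show min ((e y).1 J.1) (tm t p q (lat2 (p, q) x0) J.2 - (e y).1 J.2) = _
  rw [he y J.1, he y J.2]

/-- the relation `RM` on a level set is `RJ` of the merged system -/
theorem RM_lvl (p q : κ) (x0 : Y2 t r)
    (e : Fib (RS (p, q)) x0 ≃ Y2 (tm t p q (lat2 (p, q) x0)) (r - lat2 (p, q) x0))
    (he : ∀ y k, (e y).1 k = mrg p q y.1 k) (J : κ × κ) (x y : Fib (RS (p, q)) x0) :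
    relFib (RM p q J) (RS (p, q)) x0 x y ↔ RJ J (e x) (e y) := by
  constructor
  · intro hxy k h1 h2
    rw [he x k, he y k]
    exact hxy.2 k h1 h2
  · intro hxy
    refine ⟨?_, fun k h1 h2 => ?_⟩
    · have hx : lat2 (p, q) x0 = lat2 (p, q) x.1 := x.2
      have hy : lat2 (p, q) x0 = lat2 (p, q) y.1 := y.2
      exact hx.symm.trans hy
    · have := hxy k h1 h2
      rw [he x k, he y k] at this
      exact this

/-- (LEVEL) the induction hypothesis on all level sets, summed -/
theorem level [LinearOrder κ] (p q : κ) (hpq : p ≠ q) (IH : ∀ s, JSat (tm t p q s))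
    (h : Y2 t r → ℝ) (z : κ × κ → Y2 t r → ℝ)
    (hz : ∀ J x y, lat2 (p, q) x = lat2 (p, q) y → latM p q J x = latM p q J y → z J x = z J y) :
    dot (h - avg (RS (p, q)) h) (h - avg (RS (p, q)) h)
      ≤ ∑ J ∈ pr κ, jsTerm (RS (p, q)) (RM p q J) h (z J) := by
  have main : (1 : ℝ) * dot (h - avg (RS (p, q)) h) (h - avg (RS (p, q)) h)
      ≤ ∑ J ∈ pr κ, jsTerm (RS (p, q)) (RM p q J) h (z J) := by
    refine localise (RS_equiv (t := t) (r := r) (p, q)) (pr κ) (fun J => RM p q J)
      (fun J => RM_equiv p q J) (fun J x y hxy => hxy.1) 1 h z ?_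
    intro x0
    obtain ⟨e, he⟩ := exists_lvlEquiv p q hpq x0
    set g' : Y2 (tm t p q (lat2 (p, q) x0)) (r - lat2 (p, q) x0) → ℝ :=
      fun x => h (e.symm x).1 with hg'
    set z' : κ × κ → Y2 (tm t p q (lat2 (p, q) x0)) (r - lat2 (p, q) x0) → ℝ :=
      fun J x => z J (e.symm x).1 with hz'
    have hf : (fun y : Fib (RS (p, q)) x0 => h y.1) = fun y => g' (e y) := by
      funext y
      simp [hg']
    have hzz : ∀ J, (fun y : Fib (RS (p, q)) x0 => z J y.1) = fun y => z' J (e y) := by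
      intro J
      funext y
      simp [hz']
    have hinv : ∀ J x y, lat2 J x = lat2 J y → z' J x = z' J y := by
      intro J x y hxy
      apply hz J
      · have hx : lat2 (p, q) x0 = lat2 (p, q) (e.symm x).1 := (e.symm x).2
        have hy : lat2 (p, q) x0 = lat2 (p, q) (e.symm y).1 := (e.symm y).2
        exact hx.symm.trans hy
      · have h1 := lat2_lvl p q x0 e he J (e.symm x)
        have h2 := lat2_lvl p q x0 e he J (e.symm y)
        rw [Equiv.apply_symm_apply] at h1 h2
        rw [← h1, ← h2]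
        exact hxy
    have key := IH (lat2 (p, q) x0) (r - lat2 (p, q) x0) g' z' hinv
    rw [one_mul, hf, var_equiv e (R := RT) (R' := RT) (fun _ _ => Iff.rfl) g']
    refine key.trans (le_of_eq ?_)
    refine Finset.sum_congr rfl fun J _ => ?_
    rw [hzz J]
    exact (jsTerm_equiv e (R := RT) (R' := RT) (fun _ _ => Iff.rfl)
      (fun x y => RM_lvl p q x0 e he J x y) g' (z' J)).symm
  rwa [one_mul] at main

end P328JS
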