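import Vale.Agent.Lib.P328.JS.Defs

/-!
# P328, chain (HEX) ==> (JS): the two smallest active sites; merging decreases the number of
active sites
-/

namespace P328JS

open P335 P328RC Finset

variable {κ : Type*} [Fintype κ] [LinearOrder κ]

/-- two smallest active sites -/
theorem exists_two_smallest (t : κ → ℕ) (h : ∃ i j : κ, 0 < t i ∧ 0 < t j ∧ i ≠ j) :
    ∃ p q : κ, p < q ∧ 0 < t p ∧ 0 < t q ∧ ∀ j, 0 < t j → j = p ∨ j = q ∨ q < j := by
  obtain ⟨i, j, hi, hj, hij⟩ := h
  set A : Finset κ := univ.filter (fun j => 0 < t j) with hA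
  have hAi : i ∈ A := by simp [hA, hi]
  have hAj : j ∈ A := by simp [hA, hj]
  have hne : A.Nonempty := ⟨i, hAi⟩
  set p := A.min' hne with hp
  have hpA : p ∈ A := A.min'_mem hne
  have hne2 : (A.erase p).Nonempty := by
    by_cases hip : i = p
    · exact ⟨j, Finset.mem_erase.2 ⟨fun hjp => hij (hip.trans hjp.symm), hAj⟩⟩
    · exact ⟨i, Finset.mem_erase.2 ⟨hip, hAi⟩⟩
  set q := (A.erase p).min' hne2 with hq
  have hqA : q ∈ A.erase p := (A.erase p).min'_mem hne2
  have hqp : q ≠ p := (Finset.mem_erase.1 hqA).1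
  have hqA' : q ∈ A := (Finset.mem_erase.1 hqA).2
  refine ⟨p, q, lt_of_le_of_ne (A.min'_le q hqA') hqp.symm, ?_, ?_, ?_⟩
  · simpa [hA] using hpA
  · simpa [hA] using hqA'
  · intro k hk
    by_cases hkp : k = p
    · exact Or.inl hkp
    · right
      have hkA : k ∈ A.erase p := Finset.mem_erase.2 ⟨hkp, by simp [hA, hk]⟩
      have := (A.erase p).min'_le k hkA
      rcases this.lt_or_eq with h | h
      · exact Or.inr h
      · exact Or.inl h.symm

/-- merging decreases the number of active sites -/
theorem card_active_tm (t : κ → ℕ) (p q : κ) (hpq : p ≠ q) (hp : 0 < t p) (hq : 0 < t q) (s : ℕ) :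
    (univ.filter (fun j => 0 < tm t p q s j)).card < (univ.filter (fun j => 0 < t j)).card := by
  apply Finset.card_lt_card
  rw [Finset.ssubset_iff_of_subset]
  · refine ⟨q, by simp [hq], ?_⟩
    have : tm t p q s q = 0 := by
      unfold tm
      rw [if_neg hpq.symm, if_pos rfl]
    simp [this]
  · intro j hj
    simp only [Finset.mem_filter, Finset.mem_univ, true_and] at hj ⊢
    unfold tm at hj
    split_ifs at hj with h1 h2
    · rw [h1]; exact hp
    · omega
    · exact hj

end P328JS
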