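import Vale.Agent.Lib.P328.JS.Step
import Vale.Agent.Lib.P328.JS.Small

/-!
# P328, chain (HEX) ==> (JS): the hexagon inequality implies (JS) with constant one
-/

namespace P328JS

open P335 P328RC Finset

variable {κ : Type*} [Fintype κ] [LinearOrder κ]

/-- base case: at most one configuration -/
theorem JSat_of_subsingleton (t : κ → ℕ) (h : ∀ i j : κ, 0 < t i → 0 < t j → i = j) : JSat t := by
  intro r g z _
  have hs : ∀ x y : Y2 t r, x = y := subsingleton_of_active h
  have h1 : g - avg RT g = 0 := by
    rw [avg_of_singleton RT_equiv (fun x y _ => hs x y) g, sub_self]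
  rw [h1, dot_zero_left]
  refine Finset.sum_nonneg fun J _ => ?_
  refine le_of_eq (Eq.symm ?_)
  exact jsTerm_singleton_const (RJ_equiv J) (fun x y _ => hs x y) g (z J)
    (fun x y _ => by rw [hs x y])

theorem JSat_of_card (hHEX : HEX) :
    ∀ (n : ℕ) (t : κ → ℕ), (univ.filter (fun j => 0 < t j)).card ≤ n → JSat t := by
  intro n
  induction n with
  | zero =>
    intro t ht
    apply JSat_of_subsingleton
    intro i j hi _
    exfalso
    have : i ∈ univ.filter (fun j => 0 < t j) := by simp [hi]
    have h0 : univ.filter (fun j => 0 < t j) = ∅ := Finset.card_eq_zero.1 (Nat.le_zero.1 ht)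
    rw [h0] at this
    simp at this
  | succ n ih =>
    intro t ht
    by_cases h : ∃ i j : κ, 0 < t i ∧ 0 < t j ∧ i ≠ j
    · obtain ⟨p, q, hpq, hp, hq, hmin⟩ := exists_two_smallest t h
      refine step hHEX p q hpq hp hmin (fun s => ih _ ?_)
      have := card_active_tm t p q hpq.ne hp hq s
      omega
    · apply JSat_of_subsingleton
      intro i j hi hj
      by_contra hij
      exact h ⟨i, j, hi, hj, hij⟩

/-- **(HEX) implies (JS) with constant one, for every index type** -/
theorem JS_of_HEX (hHEX : HEX) : JS κ 1 := by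
  intro t s g z hz
  rw [one_mul]
  exact JSat_of_card hHEX _ t le_rfl s g z hz

end P328JS
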