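import Vale.Agent.Lib.P328.JS.Main
import Vale.Agent.Lib.P328.RC.Main

/-!
# P328: the hexagon inequality implies rapid mixing of the `2 × 2` heat-bath chain, all margins
-/

namespace P328JS

open P335 P328RC Finset

theorem card_pr_le (m : ℕ) : (pr (Fin m)).card ≤ m ^ 2 := by
  have h : (pr (Fin m)).card ≤ (univ : Finset (Fin m × Fin m)).card := Finset.card_le_univ _
  simpa [Finset.card_univ, Fintype.card_prod, sq] using h

theorem pr_nonempty (m : ℕ) (hm : 2 ≤ m) : (pr (Fin m)).Nonempty :=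
  ⟨(⟨0, by omega⟩, ⟨1, by omega⟩), mem_pr.2 (by simp [Fin.lt_def])⟩

open Classical in
/-- (HEX) implies rapid mixing for all margins -/
theorem mixing_of_HEX (hHEX : HEX) (m n : ℕ) (hm : 2 ≤ m) (hn : 2 ≤ n) (r : Fin m → ℕ)
    (c : Fin n → ℕ) (j t : ℕ)
    (ht : 2 * m ^ 2 * n ^ 2 * (m * n * (Nat.log 2 (∑ i, r i) + 1) + 2 * j) ≤ t) (X : Tab r c) :
    (1 / 2) * ∑ Y, |(hbMat r c ^ t) X Y - 1 / (Fintype.card (Tab r c) : ℝ)| ≤ (1 / 2) ^ (j + 1) := by
  have h := mixing_of_JS (r := r) (c := c) (cst := 1) one_pos (JS_of_HEX hHEX) (JS_of_HEX hHEX)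
    (pr_nonempty m hm) (pr_nonempty n hn) (2 * m ^ 2 * n ^ 2) (by
      have h1 : ((pr (Fin m)).card : ℝ) ≤ (m : ℝ) ^ 2 := by exact_mod_cast card_pr_le m
      have h2 : ((pr (Fin n)).card : ℝ) ≤ (n : ℝ) ^ 2 := by exact_mod_cast card_pr_le n
      have h3 : ((pr (Fin m)).card : ℝ) * ((pr (Fin n)).card : ℝ) ≤ (m : ℝ) ^ 2 * (n : ℝ) ^ 2 :=
        mul_le_mul h1 h2 (Nat.cast_nonneg _) (by positivity)
      push_cast
      nlinarith) j t (by simpa using ht) X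
  exact h

end P328JS
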