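import Vale.Agent.Lib.P328.JS.Defs

/-!
# P328, chain (HEX) ==> (JS): elementary facts on the merged configuration
-/

namespace P328JS

open P335 P328RC Finset

variable {κ : Type*} [Fintype κ] [DecidableEq κ] {t : κ → ℕ} {r : ℕ}

/-- splitting a sum over all sites at two distinct sites -/
theorem sum_split2 (p q : κ) (hpq : p ≠ q) (f : κ → ℕ) :
    ∑ k, f k = f p + (f q + ∑ k ∈ (univ.erase p).erase q, f k) := by
  have h1 : f p + ∑ k ∈ univ.erase p, f k = ∑ k, f k :=
    Finset.add_sum_erase univ f (Finset.mem_univ p)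
  have hq : q ∈ univ.erase p := Finset.mem_erase.mpr ⟨fun h => hpq h.symm, Finset.mem_univ q⟩
  have h2 : f q + ∑ k ∈ (univ.erase p).erase q, f k = ∑ k ∈ univ.erase p, f k :=
    Finset.add_sum_erase (univ.erase p) f hq
  rw [← h1, ← h2]

/-- total of the merged configuration -/
theorem sum_mrg (p q : κ) (hpq : p ≠ q) (x : Y2 t r) :
    ∑ k, mrg p q x k + lat2 (p, q) x = r := by
  have hx : ∑ k, x.1 k = r := x.2.2
  rw [sum_split2 p q hpq] at hx
  rw [sum_split2 p q hpq]
  have hrest : ∑ k ∈ (univ.erase p).erase q, mrg p q x k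
      = ∑ k ∈ (univ.erase p).erase q, x.1 k := by
    apply Finset.sum_congr rfl
    intro k hk
    have hkq : k ≠ q := (Finset.mem_erase.mp hk).1
    have hkp : k ≠ p := (Finset.mem_erase.mp (Finset.mem_erase.mp hk).2).1
    simp [mrg, hkp, hkq]
  rw [hrest]
  have hp : mrg p q x p = x.1 p + x.1 q - lat2 (p, q) x := by simp [mrg]
  have hq : mrg p q x q = 0 := by
    have : q ≠ p := fun h => hpq h.symm
    simp [mrg, this]
  rw [hp, hq]
  have hl : lat2 (p, q) x ≤ x.1 p := by
    unfold lat2
    exact min_le_left _ _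
  omega

/-- the merged configuration respects the merged caps -/
theorem mrg_le (p q : κ) (hpq : p ≠ q) (x : Y2 t r) (k : κ) :
    mrg p q x k ≤ tm t p q (lat2 (p, q) x) k := by
  have h1 := x.2.1 p
  have h2 := x.2.1 q
  have h3 := x.2.1 k
  by_cases hkp : k = p
  · subst hkp
    have hl : lat2 (k, q) x = min (x.1 k) (t q - x.1 q) := rfl
    simp only [mrg, tm, if_true]
    rw [hl]
    omega
  · by_cases hkq : k = q
    · subst hkq
      simp [mrg, tm, hkp]
    · simp [mrg, tm, hkp, hkq, h3]

/-- the level and the merged configuration determine the configuration -/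
theorem mrg_inj (p q : κ) (hpq : p ≠ q) (x y : Y2 t r) (hs : lat2 (p, q) x = lat2 (p, q) y)
    (h : ∀ k, mrg p q x k = mrg p q y k) : x = y := by
  have hx1 := x.2.1 p
  have hx2 := x.2.1 q
  have hy1 := y.2.1 p
  have hy2 := y.2.1 q
  have hlx : lat2 (p, q) x = min (x.1 p) (t q - x.1 q) := rfl
  have hly : lat2 (p, q) y = min (y.1 p) (t q - y.1 q) := rfl
  have hp := h p
  simp only [mrg, if_true] at hp
  rw [hlx, hly] at hp
  rw [hlx, hly] at hs
  apply Subtype.ext
  funext k
  by_cases hkp : k = p
  · subst hkp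
    omega
  · by_cases hkq : k = q
    · subst hkq
      omega
    · have hk := h k
      simpa [mrg, hkp, hkq] using hk

end P328JS
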