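import Vale.Agent.Lib.P328.JS.Mrg

/-!
# P328, chain (HEX) ==> (JS): identification of the merged relations and levels
-/

namespace P328JS

open P335 P328RC Finset

variable {κ : Type*} [Fintype κ] [DecidableEq κ] {t : κ → ℕ} {r : ℕ}

private theorem mrg_at_p (p q : κ) (x : Y2 t r) :
    mrg p q x p = x.1 p + x.1 q - lat2 (p, q) x := by
  simp [mrg]

private theorem mrg_at_q (p q : κ) (hpq : p ≠ q) (x : Y2 t r) : mrg p q x q = 0 := by
  have : q ≠ p := fun h => hpq h.symm
  simp [mrg, this]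

private theorem mrg_off (p q k : κ) (hkp : k ≠ p) (hkq : k ≠ q) (x : Y2 t r) :
    mrg p q x k = x.1 k := by
  simp [mrg, hkp, hkq]

private theorem eq_of_off (f g : κ → ℕ) (e : κ) (hs : ∑ k, f k = ∑ k, g k)
    (h : ∀ k, k ≠ e → f k = g k) : ∀ k, f k = g k := by
  have h1 : f e + ∑ k ∈ univ.erase e, f k = ∑ k, f k :=
    Finset.add_sum_erase univ f (Finset.mem_univ e)
  have h2 : g e + ∑ k ∈ univ.erase e, g k = ∑ k, g k :=
    Finset.add_sum_erase univ g (Finset.mem_univ e)
  have h3 : ∑ k ∈ univ.erase e, f k = ∑ k ∈ univ.erase e, g k := by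
    apply Finset.sum_congr rfl
    intro k hk
    exact h k (Finset.mem_erase.mp hk).1
  have he : f e = g e := by omega
  intro k
  by_cases hk : k = e
  · subst hk
    exact he
  · exact h k hk

theorem RM_pl (p q l : κ) (hpq : p ≠ q) (hpl : p ≠ l) (hql : q ≠ l) (x y : Y2 t r) :
    RM p q (p, l) x y ↔ (lat2 (p, q) x = lat2 (p, q) y ∧ R3 p q l x y) := by
  constructor
  · rintro ⟨h1, h2⟩
    refine ⟨h1, ?_⟩
    intro k hkp hkq hkl
    have := h2 k hkp hkl
    rwa [mrg_off p q k hkp hkq, mrg_off p q k hkp hkq] at this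
  · rintro ⟨h1, h2⟩
    refine ⟨h1, ?_⟩
    intro k hkp hkl
    have hkp' : k ≠ p := hkp
    have hkl' : k ≠ l := hkl
    by_cases hkq : k = q
    · subst hkq
      rw [mrg_at_q p k hpq, mrg_at_q p k hpq]
    · rw [mrg_off p q k hkp' hkq, mrg_off p q k hkp' hkq]
      exact h2 k hkp' hkq hkl'

theorem RM_disj (p q : κ) (hpq : p ≠ q) (J : κ × κ) (h1p : J.1 ≠ p) (h1q : J.1 ≠ q)
    (h2p : J.2 ≠ p) (h2q : J.2 ≠ q) (x y : Y2 t r) : RM p q J x y ↔ RJ J x y := by
  have hlx : lat2 (p, q) x = min (x.1 p) (t q - x.1 q) := rfl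
  have hly : lat2 (p, q) y = min (y.1 p) (t q - y.1 q) := rfl
  constructor
  · rintro ⟨hs, h2⟩
    have hx1 := x.2.1 p
    have hx2 := x.2.1 q
    have hy1 := y.2.1 p
    have hy2 := y.2.1 q
    have hp := h2 p (fun h => h1p h.symm) (fun h => h2p h.symm)
    rw [mrg_at_p, mrg_at_p, hlx, hly] at hp
    rw [hlx, hly] at hs
    intro k hk1 hk2
    by_cases hkp : k = p
    · subst hkp
      omega
    · by_cases hkq : k = q
      · subst hkq
        omega
      · have := h2 k hk1 hk2
        rwa [mrg_off p q k hkp hkq, mrg_off p q k hkp hkq] at this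
  · intro h
    have hp : x.1 p = y.1 p := h p (fun e => h1p e.symm) (fun e => h2p e.symm)
    have hq : x.1 q = y.1 q := h q (fun e => h1q e.symm) (fun e => h2q e.symm)
    have hs : lat2 (p, q) x = lat2 (p, q) y := by rw [hlx, hly, hp, hq]
    refine ⟨hs, ?_⟩
    intro k hk1 hk2
    by_cases hkp : k = p
    · subst hkp
      rw [mrg_at_p, mrg_at_p, hs, hp, hq]
    · by_cases hkq : k = q
      · subst hkq
        rw [mrg_at_q p k hpq, mrg_at_q p k hpq]
      · rw [mrg_off p q k hkp hkq, mrg_off p q k hkp hkq]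
        exact h k hk1 hk2

/-- a dummy site of the merged system carries nothing -/
private theorem mrg_dummy (p q : κ) (hpq : p ≠ q) (hp : 0 < t p) (d : κ)
    (hd : d = q ∨ t d = 0) (x : Y2 t r) : mrg p q x d = 0 := by
  by_cases hdq : d = q
  · subst hdq
    exact mrg_at_q p d hpq x
  · have htd : t d = 0 := by
      rcases hd with h | h
      · exact absurd h hdq
      · exact h
    have hdp : d ≠ p := by
      intro h
      subst h
      omega
    rw [mrg_off p q d hdp hdq]
    have := x.2.1 d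
    omega

/-- pairs containing a site which is a dummy of the merged system have singleton classes -/
theorem RM_singleton (p q : κ) (hpq : p ≠ q) (hp : 0 < t p) (J : κ × κ) (hJ : J.1 ≠ J.2)
    (hd : J.1 = q ∨ J.2 = q ∨ t J.1 = 0 ∨ t J.2 = 0) (x y : Y2 t r) (h : RM p q J x y) :
    x = y := by
  obtain ⟨hs, h2⟩ := h
  have hsx := sum_mrg p q hpq x
  have hsy := sum_mrg p q hpq y
  have hsum : ∑ k, mrg p q x k = ∑ k, mrg p q y k := by omega
  apply mrg_inj p q hpq x y hs
  have hcase : (J.1 = q ∨ t J.1 = 0) ∨ (J.2 = q ∨ t J.2 = 0) := by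
    rcases hd with h | h | h | h
    · exact Or.inl (Or.inl h)
    · exact Or.inr (Or.inl h)
    · exact Or.inl (Or.inr h)
    · exact Or.inr (Or.inr h)
  rcases hcase with h1 | h1
  · -- `J.1` is a dummy: agree off `J.2`
    apply eq_of_off _ _ J.2 hsum
    intro k hk
    by_cases hk1 : k = J.1
    · rw [hk1, mrg_dummy p q hpq hp J.1 h1 x, mrg_dummy p q hpq hp J.1 h1 y]
    · exact h2 k hk1 hk
  · apply eq_of_off _ _ J.1 hsum
    intro k hk
    by_cases hk2 : k = J.2
    · rw [hk2, mrg_dummy p q hpq hp J.2 h1 x, mrg_dummy p q hpq hp J.2 h1 y]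
    · exact h2 k hk hk2

theorem latM_pl (p q l : κ) (hpq : p ≠ q) (hpl : p ≠ l) (hql : q ≠ l) (x : Y2 t r) :
    lat2 (p, q) x + latM p q (p, l) x = sig p q l x := by
  have hlp : l ≠ p := fun h => hpl h.symm
  have hlq : l ≠ q := fun h => hql h.symm
  have h1 : tm t p q (lat2 (p, q) x) l = t l := by simp [tm, hlp, hlq]
  unfold latM sig
  simp only []
  rw [mrg_at_p, mrg_off p q l hlp hlq, h1]

theorem latM_disj (p q : κ) (J : κ × κ) (h1p : J.1 ≠ p) (h1q : J.1 ≠ q)
    (h2p : J.2 ≠ p) (h2q : J.2 ≠ q) (x : Y2 t r) : latM p q J x = lat2 J x := by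
  have h1 : tm t p q (lat2 (p, q) x) J.2 = t J.2 := by simp [tm, h2p, h2q]
  unfold latM
  rw [mrg_off p q J.1 h1p h1q, mrg_off p q J.2 h2p h2q, h1]
  rfl

end P328JS
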