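import Vale.Agent.Lib.P328.JS.Defs

/-!
# P328, chain (HEX) ==> (JS): combinatorics of the pairs
-/

namespace P328JS

open P335 P328RC Finset

variable {κ : Type*} [Fintype κ] [LinearOrder κ]

/-- the active sites other than `p, q` -/
def act (t : κ → ℕ) (p q : κ) : Finset κ := univ.filter (fun l => 0 < t l ∧ l ≠ p ∧ l ≠ q)

/-- the pairs disjoint from `p, q` -/
def dj (p q : κ) : Finset (κ × κ) :=
  (pr κ).filter (fun J => J.1 ≠ p ∧ J.1 ≠ q ∧ J.2 ≠ p ∧ J.2 ≠ q)

/-- splitting the sum over all pairs; `p < q` are the two smallest active sites -/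
theorem sum_split (t : κ → ℕ) (p q : κ) (hpq : p < q)
    (hmin : ∀ j, 0 < t j → j = p ∨ j = q ∨ q < j) (Φ : κ × κ → ℝ)
    (h0 : ∀ J ∈ pr κ, (t J.1 = 0 ∨ t J.2 = 0) → (J.1 = p ∨ J.1 = q ∨ J.2 = p ∨ J.2 = q) →
      Φ J = 0) :
    ∑ J ∈ pr κ, Φ J
      = Φ (p, q) + ∑ l ∈ act t p q, (Φ (p, l) + Φ (q, l)) + ∑ J ∈ dj p q, Φ J := by
  classical
  have hact : ∀ l ∈ act t p q, q < l := by
    intro l hl
    simp only [act, mem_filter, mem_univ, true_and] at hl
    rcases hmin l hl.1 with h | h | h
    · exact absurd h hl.2.1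
    · exact absurd h hl.2.2
    · exact h
  have e0 : ∑ J ∈ (pr κ).filter (fun J => J = (p, q)), Φ J = Φ (p, q) := by
    have : (pr κ).filter (fun J => J = (p, q)) = {(p, q)} := by
      ext J
      simp only [mem_filter, mem_singleton, mem_pr]
      constructor
      · exact fun h => h.2
      · intro h
        subst h
        exact ⟨hpq, rfl⟩
    rw [this, sum_singleton]
  have e1 : ∑ J ∈ (pr κ).filter (fun J => J.1 = p ∧ J.2 ∈ act t p q), Φ J
      = ∑ l ∈ act t p q, Φ (p, l) := by
    refine Finset.sum_nbij' (fun J => J.2) (fun l => (p, l)) ?_ ?_ ?_ ?_ ?_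
    · intro J hJ
      exact (mem_filter.mp hJ).2.2
    · intro l hl
      refine mem_filter.mpr ⟨mem_pr.mpr ?_, rfl, hl⟩
      exact lt_trans hpq (hact l hl)
    · intro J hJ
      have := (mem_filter.mp hJ).2.1
      exact Prod.ext this.symm rfl
    · intro l _
      rfl
    · intro J hJ
      have := (mem_filter.mp hJ).2.1
      have hJ' : J = (p, J.2) := Prod.ext this rfl
      rw [← hJ']
  have e2 : ∑ J ∈ (pr κ).filter (fun J => J.1 = q ∧ J.2 ∈ act t p q), Φ J
      = ∑ l ∈ act t p q, Φ (q, l) := by
    refine Finset.sum_nbij' (fun J => J.2) (fun l => (q, l)) ?_ ?_ ?_ ?_ ?_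
    · intro J hJ
      exact (mem_filter.mp hJ).2.2
    · intro l hl
      exact mem_filter.mpr ⟨mem_pr.mpr (hact l hl), rfl, hl⟩
    · intro J hJ
      have := (mem_filter.mp hJ).2.1
      exact Prod.ext this.symm rfl
    · intro l _
      rfl
    · intro J hJ
      have := (mem_filter.mp hJ).2.1
      have hJ' : J = (q, J.2) := Prod.ext this rfl
      rw [← hJ']
  have hmem : ∀ l, l ∈ act t p q ↔ (0 < t l ∧ l ≠ p ∧ l ≠ q) := by
    intro l
    simp [act]
  have key : ∀ J ∈ pr κ, Φ J
      = (if J = (p, q) then Φ J else 0) + (if J.1 = p ∧ J.2 ∈ act t p q then Φ J else 0)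
        + (if J.1 = q ∧ J.2 ∈ act t p q then Φ J else 0)
        + (if J.1 ≠ p ∧ J.1 ≠ q ∧ J.2 ≠ p ∧ J.2 ≠ q then Φ J else 0) := by
    rintro ⟨a, b⟩ hJ
    have hab : a < b := mem_pr.mp hJ
    have hz := h0 (a, b) hJ
    simp only at hz
    simp only [Prod.mk.injEq, hmem]
    by_cases hap : a = p
    · subst hap
      have hne : a ≠ q := ne_of_lt hpq
      by_cases hbq : b = q
      · subst hbq
        simp [hne]
      · have hba : b ≠ a := ne_of_gt hab
        by_cases htb : 0 < t b
        · simp [hne, hbq, hba, htb]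
        · have : Φ (a, b) = 0 := hz (Or.inr (by omega)) (Or.inl rfl)
          simp [this]
    · by_cases haq : a = q
      · subst haq
        have hbp : b ≠ p := ne_of_gt (lt_trans hpq hab)
        have hba : b ≠ a := ne_of_gt hab
        by_cases htb : 0 < t b
        · simp [hap, hbp, hba, htb]
        · have : Φ (a, b) = 0 := hz (Or.inr (by omega)) (Or.inr (Or.inl rfl))
          simp [this]
      · by_cases hbp : b = p
        · have hta : t a = 0 := by
            by_contra hne
            rcases hmin a (Nat.pos_of_ne_zero hne) with h | h | h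
            · exact hap h
            · exact haq h
            · subst hbp
              exact absurd (lt_trans (lt_trans hab hpq) h) (lt_irrefl _)
          have : Φ (a, b) = 0 := hz (Or.inl hta) (Or.inr (Or.inr (Or.inl hbp)))
          simp [this]
        · by_cases hbq : b = q
          · have hta : t a = 0 := by
              by_contra hne
              rcases hmin a (Nat.pos_of_ne_zero hne) with h | h | h
              · exact hap h
              · exact haq h
              · subst hbq
                exact absurd (lt_trans hab h) (lt_irrefl _)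
            have : Φ (a, b) = 0 := hz (Or.inl hta) (Or.inr (Or.inr (Or.inr hbq)))
            simp [this]
          · simp [hap, haq, hbp, hbq]
  rw [Finset.sum_congr rfl key, sum_add_distrib, sum_add_distrib, sum_add_distrib,
    ← sum_filter, ← sum_filter, ← sum_filter, ← sum_filter, e0, e1, e2, sum_add_distrib]
  unfold dj
  ring

end P328JS
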