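import Vale.Agent.Lib.P328.JS.BL
import Vale.Agent.Lib.P328.JS.Level
import Vale.Agent.Lib.P328.JS.RMfacts
import Vale.Agent.Lib.P328.JS.Conc
import Vale.Agent.Lib.P328.JS.Comm
import Vale.Agent.Lib.P328.JS.Split

/-!
# P328, chain (HEX) ==> (JS): the induction step
-/

namespace P328JS

open P335 P328RC Finset

variable {κ : Type*} [Fintype κ] [LinearOrder κ] {t : κ → ℕ}

theorem mem_act {p q l : κ} : l ∈ act t p q ↔ 0 < t l ∧ l ≠ p ∧ l ≠ q := by
  simp [act]

theorem mem_dj {p q : κ} {J : κ × κ} :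
    J ∈ dj p q ↔ J.1 < J.2 ∧ J.1 ≠ p ∧ J.1 ≠ q ∧ J.2 ≠ p ∧ J.2 ≠ q := by
  simp [dj, mem_pr]

omit [LinearOrder κ] in
/-- a pair with a dummy site contributes nothing -/
theorem jsTerm_dummy {r : ℕ} (J : κ × κ) (hJ : J.1 ≠ J.2) (hd : t J.1 = 0 ∨ t J.2 = 0)
    (g z : Y2 t r → ℝ) (hz : ∀ x y, lat2 J x = lat2 J y → z x = z y) :
    jsTerm RT (RJ J) g z = 0 :=
  jsTerm_singleton_const (RJ_equiv J) (RJ_singleton J hJ hd) g z
    (fun x y _ => hz x y (by rw [lat2_dummy J hd x, lat2_dummy J hd y]))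

/-- the induction hypothesis in the form needed by `abs_step` -/
theorem step_IH {r : ℕ} (p q : κ) (hpq : p < q) (hp : 0 < t p)
    (hmin : ∀ j, 0 < t j → j = p ∨ j = q ∨ q < j) (IH : ∀ s, JSat (tm t p q s))
    (z : κ × κ → Y2 t r → ℝ) (hz : ∀ J x y, lat2 J x = lat2 J y → z J x = z J y)
    (h : Y2 t r → ℝ) (Z : κ → Y2 t r → ℝ)
    (hZ : ∀ l ∈ act t p q, ∀ x y, lat2 (p, q) x = lat2 (p, q) y →
      latM p q (p, l) x = latM p q (p, l) y → Z l x = Z l y) :
    dot (h - avg (RS (p, q)) h) (h - avg (RS (p, q)) h)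
      ≤ ∑ l ∈ act t p q, jsTerm (RS (p, q)) (RM p q (p, l)) h (Z l)
        + ∑ J ∈ dj p q, jsTerm (RS (p, q)) (RJ J) h (z J) := by
  classical
  -- the family for the merged system
  obtain ⟨zt, hzt⟩ : ∃ zt : κ × κ → Y2 t r → ℝ, ∀ J, zt J =
      if J.1 = p ∧ J.2 ∈ act t p q then Z J.2
      else if J ∈ dj p q then z J else 0 := ⟨_, fun _ => rfl⟩
  have hlev := level p q hpq.ne IH h zt (by
    intro J x y h1 h2
    rw [hzt]
    split_ifs with c1 c2
    · obtain ⟨c11, c12⟩ := c1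
      have hJ : J = (p, J.2) := by rw [← c11]
      rw [hJ] at h2
      exact hZ J.2 c12 x y h1 h2
    · obtain ⟨_, d1, d2, d3, d4⟩ := mem_dj.1 c2
      rw [latM_disj p q J d1 d2 d3 d4, latM_disj p q J d1 d2 d3 d4] at h2
      exact hz J x y h2
    · rfl)
  refine hlev.trans (le_of_eq ?_)
  rw [sum_split t p q hpq hmin (fun J => jsTerm (RS (p, q)) (RM p q J) h (zt J))]
  · -- the three groups
    have e0 : jsTerm (RS (p, q)) (RM p q (p, q)) h (zt (p, q)) = 0 := by
      have : zt (p, q) = 0 := by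
        rw [hzt, if_neg, if_neg]
        · intro hc
          exact (mem_dj.1 hc).2.1 rfl
        · intro hc
          exact (mem_act.1 hc.2).2.2 rfl
      rw [this]
      exact jsTerm_singleton_zero (RM_equiv p q _)
        (RM_singleton p q hpq.ne hp (p, q) hpq.ne (Or.inr (Or.inl rfl))) h
    have e1 : ∀ l ∈ act t p q, jsTerm (RS (p, q)) (RM p q (p, l)) h (zt (p, l))
        + jsTerm (RS (p, q)) (RM p q (q, l)) h (zt (q, l))
        = jsTerm (RS (p, q)) (RM p q (p, l)) h (Z l) := by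
      intro l hl
      have a1 : zt (p, l) = Z l := by
        rw [hzt, if_pos ⟨rfl, hl⟩]
      have a2 : zt (q, l) = 0 := by
        rw [hzt, if_neg, if_neg]
        · intro hc
          exact (mem_dj.1 hc).2.2.1 rfl
        · intro hc
          exact hpq.ne hc.1.symm
      rw [a1, a2, jsTerm_singleton_zero (RM_equiv p q _)
        (RM_singleton p q hpq.ne hp (q, l) (mem_act.1 hl).2.2.symm (Or.inl rfl)) h, add_zero]
    have e2 : ∀ J ∈ dj p q, jsTerm (RS (p, q)) (RM p q J) h (zt J)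
        = jsTerm (RS (p, q)) (RJ J) h (z J) := by
      intro J hJ
      obtain ⟨_, d1, d2, d3, d4⟩ := mem_dj.1 hJ
      have a1 : zt J = z J := by
        rw [hzt, if_neg (fun hc => d1 hc.1), if_pos hJ]
      rw [a1]
      exact jsTerm_congr (fun _ _ => Iff.rfl) (RM_disj p q hpq.ne J d1 d2 d3 d4) h (z J)
    rw [e0, zero_add, Finset.sum_congr rfl e1, Finset.sum_congr rfl e2]
  · intro J hJ hd hm
    have hJ' : J.1 < J.2 := mem_pr.1 hJ
    have : zt J = 0 := by
      rw [hzt, if_neg, if_neg]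
      · intro hc
        obtain ⟨_, d1, d2, d3, d4⟩ := mem_dj.1 hc
        rcases hm with hm | hm | hm | hm
        · exact d1 hm
        · exact d2 hm
        · exact d3 hm
        · exact d4 hm
      · intro hc
        have h2 := (mem_act.1 hc.2).1
        rcases hd with hd | hd
        · rw [hc.1] at hd
          omega
        · omega
    rw [this]
    exact jsTerm_singleton_zero (RM_equiv p q _)
      (RM_singleton p q hpq.ne hp J hJ'.ne (Or.inr (Or.inr hd))) h

/-- **the induction step** -/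
theorem step (hHEX : HEX) (p q : κ) (hpq : p < q) (hp : 0 < t p)
    (hmin : ∀ j, 0 < t j → j = p ∨ j = q ∨ q < j) (IH : ∀ s, JSat (tm t p q s)) : JSat t := by
  intro r g z hz
  obtain ⟨g0, hg0⟩ : ∃ g0, g0 = g - avg RT g := ⟨_, rfl⟩
  have hmean : avg RT g0 = 0 := by rw [hg0]; exact avg_RT_center g
  have hterm : ∀ J, jsTerm RT (RJ J) g (z J) = jsTerm RT (RJ J) g0 (z J) := by
    intro J
    rw [hg0, jsTerm_center (RJ_equiv J)]
  rw [← hg0, Finset.sum_congr rfl (fun J _ => hterm J)]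
  have habs := abs_step (act t p q) (dj p q) (RJ_equiv (t := t) (s := r) (p, q))
    (RS_equiv (p, q)) (conn_pq p q hpq.ne)
    (fun l => RJ (p, l)) (fun l => RJ (q, l)) (fun l => R3 p q l) (fun l => RM p q (p, l))
    (fun J => RJ J)
    (fun l _ => R3_equiv p q l) (fun l _ => RM_equiv p q (p, l))
    (fun l hl x y h => ((RM_pl p q l hpq.ne (mem_act.1 hl).2.1.symm (mem_act.1 hl).2.2.symm
      x y).1 h).2)
    (fun l _ x y h k h1 h2 _ => h k h1 h2)
    (fun J _ => RJ_equiv J)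
    (fun J hJ x y h => by
      obtain ⟨_, d1, d2, d3, d4⟩ := mem_dj.1 hJ
      have hxp : x.1 p = y.1 p := h p (Ne.symm d1) (Ne.symm d3)
      have hxq : x.1 q = y.1 q := h q (Ne.symm d2) (Ne.symm d4)
      show lat2 (p, q) x = lat2 (p, q) y
      unfold lat2
      simp only [hxp, hxq])
    (fun J hJ f => by
      obtain ⟨d0, d1, d2, d3, d4⟩ := mem_dj.1 hJ
      exact comm_disj (p, q) J hpq.ne d0.ne d1 d2 d3 d4 f)
    (fun l Z => ∀ x y, lat2 (p, q) x = lat2 (p, q) y →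
      latM p q (p, l) x = latM p q (p, l) y → Z x = Z y)
    g0 (z (p, q)) (fun l => z (p, l)) (fun l => z (q, l)) z hmean
    (fun x y h => hz (p, q) x y h)
    (fun J hJ x y h => by
      obtain ⟨_, d1, d2, d3, d4⟩ := mem_dj.1 hJ
      apply hz J
      have h1 : x.1 J.1 = y.1 J.1 := h J.1 d1 d2
      have h2 : x.1 J.2 = y.1 J.2 := h J.2 d3 d4
      unfold lat2
      rw [h1, h2])
    (by
      intro psi hpsi l hl
      obtain ⟨hl0, hlp, hlq⟩ := mem_act.1 hl
      obtain ⟨ζ0, h0⟩ := exists_factor (p, q) psi (fun x y h => hpsi x y h)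
      obtain ⟨ζ1, h1⟩ := exists_factor (p, l) (z (p, l)) (hz (p, l))
      obtain ⟨ζ2, h2⟩ := exists_factor (q, l) (z (q, l)) (hz (q, l))
      refine ⟨fun x => ZT (t p) (t q) (t l) ζ0 ζ1 ζ2 (sig p q l x), ?_, ?_⟩
      · intro x y e1 e2
        show ZT (t p) (t q) (t l) ζ0 ζ1 ζ2 (sig p q l x) = ZT (t p) (t q) (t l) ζ0 ζ1 ζ2 (sig p q l y)
        rw [← latM_pl p q l hpq.ne hlp.symm hlq.symm x, ← latM_pl p q l hpq.ne hlp.symm hlq.symm y,
          e1, e2]
      · have := BL hHEX p q l hpq.ne hlp.symm hlq.symm g0 ζ0 ζ1 ζ2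
        rw [← h0, ← h1, ← h2] at this
        exact this)
    (fun h Z hZ => step_IH p q hpq hp hmin IH z hz h Z hZ)
  refine habs.trans (le_of_eq ?_)
  rw [sum_split t p q hpq hmin (fun J => jsTerm RT (RJ J) g0 (z J))]
  intro J hJ hd _
  exact jsTerm_dummy J (mem_pr.1 hJ).ne hd g0 (z J) (hz J)

end P328JS
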